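import Mathlib

/-!
P129, positive direction: definitions.
-/

namespace Vale.Agent.P129.Pos

open MeasureTheory

/-- `X` has a separable infinite-dimensional quotient. -/
def SQ (𝕜 X : Type) [RCLike 𝕜] [NormedAddCommGroup X] [NormedSpace 𝕜 X] : Prop :=
  ∃ M : Submodule 𝕜 X, IsClosed (M : Set X) ∧ TopologicalSpace.SeparableSpace (X ⧸ M) ∧
    ¬ FiniteDimensional 𝕜 (X ⧸ M)

/-- The continuum is real-valued strongly compact: for every set `ι` there is a probability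
measure defined on all sets of subsets of `ι`, which is `𝔠`-additive, lives on the subsets of size
less than `𝔠` and is fine. -/
def FineAx : Prop :=
  ∀ ι : Type, ∃ μ : @Measure (Set ι) ⊤, μ Set.univ = 1 ∧
    μ {S | Cardinal.continuum ≤ Cardinal.mk S} = 0 ∧ (∀ i : ι, μ {S | i ∉ S} = 0) ∧
    ∀ A : Set (Set (Set ι)), Cardinal.mk A < Cardinal.continuum → (∀ B ∈ A, μ B = 0) →
      μ (⋃₀ A) = 0

/-- A suppression unconditional sequence of functionals, with exact norming vectors. -/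
def Unc {𝕜 X : Type} [RCLike 𝕜] [NormedAddCommGroup X] [NormedSpace 𝕜 X]
    (g : ℕ → StrongDual 𝕜 X) : Prop :=
  (∀ n, ‖g n‖ = 1) ∧ ∀ a : ℕ →₀ 𝕜, ∃ z : X, ‖z‖ ≤ 1 ∧ (∀ j, j ∉ a.support → g j z = 0) ∧
    ‖Finsupp.linearCombination 𝕜 g a‖ ≤ 3 * ‖Finsupp.linearCombination 𝕜 g a z‖

/-- The `ℓ¹` norm of a finitely supported sequence. -/
noncomputable def n1 {𝕜 : Type} [RCLike 𝕜] (a : ℕ →₀ 𝕜) : ℝ := ∑ k ∈ a.support, ‖a k‖

end Vale.Agent.P129.Pos
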