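import Vale.Agent.P129.Pos.Random

/-!
P129, positive direction, file Free: an unconditional sequence of functionals.
-/

namespace Vale.Agent.P129.Pos

open MeasureTheory Filter Finset

variable {𝕜 X : Type} [RCLike 𝕜] [NormedAddCommGroup X] [NormedSpace 𝕜 X]

/-- The abstract construction of a free sequence. -/
theorem exists_free {A : Type} [AddCommGroup A] [Module 𝕜 A] (F : Filter A)
    [CountableInterFilter F] [F.NeBot] {D : Set 𝕜} (hD : D.Countable)
    (Pr : List D → A → A → Prop) (Q : A → Prop) (hQ : ∀ᶠ f in F, Q f)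
    (h1 : ∀ l h, ∀ᶠ f in F, Pr l f h)
    (h2 : ∀ b l f h, Pr (b :: l) f h → ∀ᶠ g in F, Pr l f (h + (b : 𝕜) • g)) :
    ∃ g : ℕ → A, (∀ n, Q (g n)) ∧ ∀ (n j : ℕ) (a : ℕ → D), j < n → (a j : 𝕜) = 0 →
      Pr [] (g j) (∑ i ∈ range n, (a i : 𝕜) • g i) := by
  have : Countable D := hD.to_subtype
  let St : Type := {p : Set A × Set (A × A) //
    p.1.Countable ∧ p.2.Countable ∧ ∀ x ∈ p.2, ∀ l, Pr l x.1 x.2}
  have hstep : ∀ s : St, ∃ g, Q g ∧ (∀ h ∈ s.1.1, ∀ l, Pr l g h) ∧
      ∀ x ∈ s.1.2, ∀ (b : D) l, Pr l x.1 (x.2 + (b : 𝕜) • g) := by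
    intro s
    have e1 : ∀ᶠ g in F, ∀ h ∈ s.1.1, ∀ l, Pr l g h :=
      (eventually_countable_ball s.2.1).2 fun h _ => eventually_countable_forall.2 fun l => h1 l h
    have e2 : ∀ᶠ g in F, ∀ x ∈ s.1.2, ∀ (b : D) l, Pr l x.1 (x.2 + (b : 𝕜) • g) :=
      (eventually_countable_ball s.2.2.1).2 fun x hx => eventually_countable_forall.2 fun b =>
        eventually_countable_forall.2 fun l => h2 b l _ _ (s.2.2.2 x hx _)
    exact (hQ.and (e1.and e2)).exists
  choose γ hγ1 hγ2 hγ3 using hstep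
  let nxt : St → St := fun s =>
    ⟨(Set.image2 (fun h (b : D) => h + (b : 𝕜) • γ s) s.1.1 Set.univ,
      Set.image2 (fun (x : A × A) (b : D) => (x.1, x.2 + (b : 𝕜) • γ s)) s.1.2 Set.univ ∪
        (fun h => (γ s, h)) '' s.1.1),
      s.2.1.image2 Set.countable_univ _,
      (s.2.2.1.image2 Set.countable_univ _).union (s.2.1.image _), by
        rintro x (⟨y, hy, b, -, rfl⟩ | ⟨h, hh, rfl⟩) l
        · exact hγ3 s y hy b l
        · exact hγ2 s h hh l⟩
  let st : ℕ → St := fun n => nxt^[n] ⟨({0}, ∅), Set.countable_singleton _, Set.countable_empty,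
    fun _ hx => absurd hx (Set.notMem_empty _)⟩
  have hst : ∀ n, st (n + 1) = nxt (st n) := fun n => Function.iterate_succ_apply' _ _ _
  have k1 : ∀ (a : ℕ → D) n, ∑ i ∈ range n, (a i : 𝕜) • γ (st i) ∈ (st n).1.1 := by
    intro a n
    induction n with
    | zero => simp [st]
    | succ n ih =>
      rw [hst, Finset.sum_range_succ]
      exact ⟨_, ih, a n, Set.mem_univ _, rfl⟩
  have k2 : ∀ (a : ℕ → D) (j n : ℕ), j < n → (a j : 𝕜) = 0 →
      (γ (st j), ∑ i ∈ range n, (a i : 𝕜) • γ (st i)) ∈ (st n).1.2 := by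
    intro a j n hj ha
    induction n with
    | zero => omega
    | succ n ih =>
      rw [hst, Finset.sum_range_succ]
      rcases Nat.lt_succ_iff_lt_or_eq.1 hj with h | h
      · exact Or.inl ⟨_, ih h, a n, Set.mem_univ _, rfl⟩
      · subst h
        rw [ha, zero_smul, add_zero]
        exact Or.inr ⟨_, k1 a j, rfl⟩
  exact ⟨fun n => γ (st n), fun n => hγ1 _, fun n j a hj ha =>
    (st n).2.2.2 _ (k2 a j n hj ha) []⟩

/-- A total measure on the unit sphere of the dual whose generic point kills every total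
measure on `X`. -/
theorem exists_generic [CompleteSpace X] (h : FineAx) (hX : ¬ FiniteDimensional 𝕜 X)
    (hsq : ¬ SQ 𝕜 X) : ∃ m : @Measure (StrongDual 𝕜 X) ⊤, m Set.univ = 1 ∧
      m {f | ‖f‖ ≠ 1} = 0 ∧ ∀ μ : @Measure X ⊤, μ Set.univ = 1 →
        m {f | μ {x | f x ≠ 0} ≠ 0} = 0 := by
  classical
  obtain ⟨ν, h1, h0, hadd⟩ := exists_diffuse h
  obtain ⟨ρ, hρ1, hρ2, hρ3, -⟩ := h {μ : @Measure X ⊤ // μ Set.univ = 1}
  have hq : ∀ S : Set {μ : @Measure X ⊤ // μ Set.univ = 1}, ∃ f : StrongDual 𝕜 X,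
      Cardinal.mk S < Cardinal.continuum → ‖f‖ = 1 ∧ ∀ μ ∈ S, μ.1 {x | f x ≠ 0} = 0 := by
    intro S
    by_cases hS : Cardinal.mk S < Cardinal.continuum
    · obtain ⟨f, hf1, hf2⟩ := exists_killer ν h1 h0 hadd hX hsq (Subtype.val '' S)
        (lt_of_le_of_lt Cardinal.mk_image_le hS) (by rintro _ ⟨μ, -, rfl⟩; exact μ.2)
      exact ⟨f, fun _ => ⟨hf1, fun μ hμ => hf2 _ ⟨μ, hμ, rfl⟩⟩⟩
    · exact ⟨0, fun h => absurd h hS⟩
  choose q hq using hq
  have hmap : ∀ B : Set (StrongDual 𝕜 X), @Measure.map _ _ ⊤ ⊤ q ρ B = ρ (q ⁻¹' B) := fun B =>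
    @Measure.map_apply _ _ ⊤ ⊤ ρ q (@measurable_from_top _ _ ⊤ q) B
      MeasurableSpace.measurableSet_top
  refine ⟨@Measure.map _ _ ⊤ ⊤ q ρ, by rw [hmap, Set.preimage_univ, hρ1], ?_, fun μ hμ => ?_⟩
  · rw [hmap]
    refine measure_mono_null (fun S hS => ?_) hρ2
    by_contra hne
    exact hS (hq S (not_le.1 hne)).1
  · rw [hmap]
    refine measure_mono_null (fun S hS => ?_) (measure_union_null hρ2 (hρ3 ⟨μ, hμ⟩))
    by_contra hne
    rw [Set.mem_union, not_or] at hne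
    exact hS ((hq S (not_le.1 hne.1)).2 _ (not_not.1 hne.2))

/-- The law of the norming vector of a random continuation. -/
noncomputable def law {A : Type} [AddCommGroup A] [Module 𝕜 A] (m : @Measure A ⊤) (x : A → X)
    {D : Set 𝕜} : List D → A → @Measure X ⊤
  | [], h => @Measure.dirac X ⊤ (x h)
  | b :: l, h => @Measure.bind A X ⊤ ⊤ m fun g => law m x l (h + (b : 𝕜) • g)

omit [NormedAddCommGroup X] [NormedSpace 𝕜 X] in
theorem law_cons {A : Type} [AddCommGroup A] [Module 𝕜 A] (m : @Measure A ⊤) (x : A → X)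
    {D : Set 𝕜} (b : D) (l : List D) (h : A) (B : Set X) :
    law m x (b :: l) h B = @lintegral A ⊤ m fun g => law m x l (h + (b : 𝕜) • g) B := by
  let _ : MeasurableSpace A := ⊤
  let _ : MeasurableSpace X := ⊤
  exact Measure.bind_apply MeasurableSpace.measurableSet_top measurable_from_top.aemeasurable

omit [NormedAddCommGroup X] [NormedSpace 𝕜 X] in
theorem law_univ {A : Type} [AddCommGroup A] [Module 𝕜 A] (m : @Measure A ⊤)
    (hm : m Set.univ = 1) (x : A → X) {D : Set 𝕜} (l : List D) (h : A) :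
    law m x l h Set.univ = 1 := by
  induction l generalizing h with
  | nil =>
    let _ : MeasurableSpace X := ⊤
    exact Measure.dirac_apply_of_mem (Set.mem_univ _)
  | cons b l ih =>
    rw [law_cons]
    simp only [ih]
    rw [lintegral_const, hm, one_mul]

theorem exists_unc [CompleteSpace X] (h : FineAx) (hX : ¬ FiniteDimensional 𝕜 X)
    (hsq : ¬ SQ 𝕜 X) : ∃ g : ℕ → StrongDual 𝕜 X, Unc g := by
  classical
  obtain ⟨m, hm1, hm2, hm3⟩ := exists_generic h hX hsq
  have hx : ∀ f : StrongDual 𝕜 X, ∃ x : X, ‖x‖ ≤ 1 ∧ ‖f‖ ≤ 2 * ‖f x‖ := by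
    intro f
    rcases (norm_nonneg f).lt_or_eq with h0 | h0
    · obtain ⟨x, hx1, hx2⟩ := f.exists_lt_apply_of_lt_opNorm (r := ‖f‖ / 2) (by linarith)
      exact ⟨x, hx1.le, by linarith⟩
    · exact ⟨0, by simp, by rw [← h0]; positivity⟩
  choose x hx1 hx2 using hx
  obtain ⟨D₀, hD₀c, hD₀d⟩ := TopologicalSpace.exists_countable_dense 𝕜
  have hDc : (insert 0 D₀).Countable := hD₀c.insert 0
  let _ : MeasurableSpace (StrongDual 𝕜 X) := ⊤
  have : IsProbabilityMeasure m := ⟨hm1⟩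
  obtain ⟨g, hg1, hg2⟩ := exists_free (ae m) hDc
    (fun l f h => law m x l h {y | f y ≠ 0} = 0) (fun f => ‖f‖ = 1) hm2
    (fun l h => hm3 _ (law_univ m hm1 x l h)) (by
      intro b l f h h0
      rw [law_cons, lintegral_eq_zero_iff measurable_from_top] at h0
      exact h0)
  refine ⟨g, hg1, fun a => ?_⟩
  rcases (norm_nonneg (Finsupp.linearCombination 𝕜 g a)).lt_or_eq with h0 | h0
  swap
  · exact ⟨0, by simp, fun j _ => map_zero _, by rw [← h0]; positivity⟩
  set H := Finsupp.linearCombination 𝕜 g a with hH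
  obtain ⟨n, hn⟩ : ∃ n, a.support ⊆ range n := Finset.exists_nat_subset_range _
  have hδ : 0 < ‖H‖ / 9 / (n + 1) := by positivity
  have ha' : ∀ i, ∃ b : (insert 0 D₀ : Set 𝕜), ‖a i - b‖ ≤ ‖H‖ / 9 / (n + 1) ∧
      (a i = 0 → (b : 𝕜) = 0) := by
    intro i
    by_cases hi : a i = 0
    · exact ⟨⟨0, Set.mem_insert _ _⟩, by simpa [hi] using hδ.le, fun _ => rfl⟩
    · obtain ⟨b, hb, hb'⟩ := hD₀d.exists_dist_lt (a i) hδ
      exact ⟨⟨b, Set.mem_insert_of_mem _ hb⟩, by rw [← dist_eq_norm]; exact hb'.le,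
        fun h => absurd h hi⟩
  choose b hb1 hb2 using ha'
  set H' := ∑ i ∈ range n, (b i : 𝕜) • g i with hH'
  have hHH : ‖H - H'‖ ≤ ‖H‖ / 9 := by
    have e : H = ∑ i ∈ range n, a i • g i := by
      rw [hH, Finsupp.linearCombination_apply, Finsupp.sum_of_support_subset _ hn]
      intro i _
      rw [zero_smul]
    have e2 : H - H' = ∑ i ∈ range n, (a i - b i) • g i := by
      rw [hH']
      conv_lhs => rw [e]
      rw [← Finset.sum_sub_distrib]
      exact Finset.sum_congr rfl fun i _ => (sub_smul _ _ _).symm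
    rw [e2]
    refine (norm_sum_le _ _).trans ?_
    have h3 : ∑ i ∈ range n, ‖(a i - b i) • g i‖ ≤ (range n).card • (‖H‖ / 9 / (n + 1)) :=
      Finset.sum_le_card_nsmul _ _ _ fun i _ => by rw [norm_smul, hg1, mul_one]; exact hb1 i
    refine h3.trans ?_
    rw [Finset.card_range, nsmul_eq_mul, ← mul_div_assoc, div_le_iff₀ (by positivity)]
    nlinarith
  refine ⟨x H', hx1 _, fun j hj => ?_, ?_⟩
  · have hj0 : a j = 0 := Finsupp.notMem_support_iff.1 hj
    have h3 := hg2 (max n (j + 1)) j b (by omega) (hb2 j hj0)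
    have e : ∑ i ∈ range (max n (j + 1)), (b i : 𝕜) • g i = H' := by
      symm
      apply Finset.sum_subset (Finset.range_subset_range.2 (le_max_left _ _))
      intro i _ hi
      rw [hb2 i (Finsupp.notMem_support_iff.1 fun h => hi (hn h))]
      exact zero_smul 𝕜 (g i)
    rw [e] at h3
    by_contra hne
    let _ : MeasurableSpace X := ⊤
    have h4 : law m x ([] : List (insert 0 D₀ : Set 𝕜)) H' {y | g j y ≠ 0} = 1 :=
      Measure.dirac_apply_of_mem hne
    rw [h4] at h3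
    exact one_ne_zero h3
  · have h3 := hx2 H'
    have h4 : ‖(H - H') (x H')‖ ≤ ‖H‖ / 9 :=
      ((H - H').le_opNorm _).trans ((mul_le_of_le_one_right (norm_nonneg _) (hx1 _)).trans hHH)
    rw [sub_apply] at h4
    have h5 := norm_sub_norm_le H H'
    have h6 := norm_sub_norm_le (H' (x H')) (H (x H'))
    rw [norm_sub_rev] at h6
    linarith

end Vale.Agent.P129.Pos
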