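import Vale.Agent.P129.Pos.Defs

/-!
P129, positive direction, file HJ: the dichotomy of Hagler and Johnson.

Plan.  `H v = linearCombination 𝕜 h v`, `‖H v‖ ≤ n1 v`.  Call `a : ℕ → (ℕ →₀ 𝕜)` a block sequence if
`n1 (a i) = 1` and the supports are pairwise disjoint.  `a' ≺ a` means
`∀ m, ∀ᶠ i, a' i ∈ span {a k | m ≤ k}` (transitive).  `D a = {η | 0 ≤ η ∧ ∀ x, ‖x‖ ≤ 1 →
∀ᶠ i, ‖H (a i) x‖ ≤ η}`, `δ a = sInf (D a)`; `1 ∈ D a`, `D a` is upward closed, and `a' ≺ a` gives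
`D a ⊆ D a'` (for `v ∈ span {a k | m ≤ k}`, `‖H v x‖ ≤ η * n1 v` by disjointness).
Stabilization: choose `a (n+1) ≺ a n` with `δ (a (n+1)) ≤ δ b + 1/(n+1)` for all blocks `b ≺ a n`,
and a diagonal block sequence `d n = a n (k n)` with `d ≺ a n` for all `n`; then `δ d ≤ δ b` for all
blocks `b ≺ d`.  If `δ d = 0` we are in the first case.  Else let `δ = δ d`, `Z` a finite set of
unimodular scalars which is a `1/16`-net of the unit sphere of `𝕜`.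
Splitting lemma: for a finite nonempty family `M s` of infinite subsets of `ℕ` there is `x`, `‖x‖ ≤ 1`,
such that all `{k ∈ M s | ‖H (d k) x - δ ζ‖ ≤ δ / 4}`, `ζ ∈ Z`, are infinite.  (Take an injective
`k (i, s, ζ) ∈ M s`, `b i = N⁻¹ ∑ (s, ζ), conj ζ • d (k (i, s, ζ))`, a block `≺ d`; `δ (1 - ε) ∉ D b` and
`δ (1 + ε) ∈ D d` give `x` and infinitely many `i` and unimodular `θ i` with all
`re (θ i * conj ζ * H (d k) x) ≥ δ (1 + ε - 2 N ε)`, so `‖θ i * conj ζ * H (d k) x - δ‖ ≤ δ / 8` for small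
`ε`; one `θ ∈ Z` is within `1/16` of infinitely many `θ i`; use `θ • x`.)
Recursion: `x 0, x 1, ..` such that for all `n` and `s : Fin n → Z` the set of `k` with
`‖H (d k) (x j) - δ s j‖ ≤ δ / 4` for `j < n` is infinite.  Given `b`, choose `s j` with
`re (b j * s j) ≥ (3/4) ‖b j‖`; then `‖∑ b j • x j‖ ≥ re (H (d k) (∑ b j • x j)) ≥ (δ / 2) n1 b`.
-/

namespace Vale.Agent.P129.Pos

open Filter Topology

variable {𝕜 X : Type} [RCLike 𝕜] [NormedAddCommGroup X] [NormedSpace 𝕜 X]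

theorem hj_n1_nonneg (a : ℕ →₀ 𝕜) : 0 ≤ n1 a := Finset.sum_nonneg fun _ _ => norm_nonneg _

theorem hj_n1_eq (a : ℕ →₀ 𝕜) {S : Finset ℕ} (hS : a.support ⊆ S) : n1 a = ∑ k ∈ S, ‖a k‖ := by
  refine Finset.sum_subset hS fun k _ hk => ?_
  rw [Finsupp.notMem_support_iff.mp hk, norm_zero]

theorem hj_n1_smul (c : 𝕜) (a : ℕ →₀ 𝕜) : n1 (c • a) = ‖c‖ * n1 a := by
  rw [hj_n1_eq (c • a) Finsupp.support_smul, n1, Finset.mul_sum]
  refine Finset.sum_congr rfl fun k _ => ?_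
  rw [Finsupp.smul_apply, smul_eq_mul, norm_mul]

theorem hj_n1_add {a b : ℕ →₀ 𝕜} (hab : Disjoint a.support b.support) :
    n1 (a + b) = n1 a + n1 b := by
  rw [hj_n1_eq (a + b) Finsupp.support_add, Finset.sum_union hab, n1, n1]
  congr 1
  · refine Finset.sum_congr rfl fun k hk => ?_
    rw [Finsupp.add_apply, Finsupp.notMem_support_iff.mp (Finset.disjoint_left.mp hab hk), add_zero]
  · refine Finset.sum_congr rfl fun k hk => ?_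
    rw [Finsupp.add_apply, Finsupp.notMem_support_iff.mp (Finset.disjoint_right.mp hab hk), zero_add]

theorem hj_mem_support_sum {ι : Type} {S : Finset ι} {u : ι → ℕ →₀ 𝕜} {j : ℕ}
    (hj : j ∈ (∑ t ∈ S, u t).support) : ∃ t ∈ S, j ∈ (u t).support := by
  by_contra hcon
  push Not at hcon
  refine Finsupp.mem_support_iff.mp hj ?_
  rw [Finsupp.finsetSum_apply]
  exact Finset.sum_eq_zero fun t ht => Finsupp.notMem_support_iff.mp (hcon t ht)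

theorem hj_n1_sum {ι : Type} (S : Finset ι) (u : ι → ℕ →₀ 𝕜)
    (hu : ∀ t ∈ S, ∀ t' ∈ S, t ≠ t' → Disjoint (u t).support (u t').support) :
    n1 (∑ t ∈ S, u t) = ∑ t ∈ S, n1 (u t) := by
  classical
  induction S using Finset.induction_on with
  | empty => simp [n1]
  | insert t S ht ih =>
    rw [Finset.sum_insert ht, Finset.sum_insert ht, hj_n1_add, ih]
    · exact fun a ha b hb => hu a (Finset.mem_insert_of_mem ha) b (Finset.mem_insert_of_mem hb)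
    · refine Finset.disjoint_left.mpr fun j hj hj' => ?_
      obtain ⟨t', ht', hjt⟩ := hj_mem_support_sum hj'
      refine Finset.disjoint_left.mp (hu t (Finset.mem_insert_self _ _) t'
        (Finset.mem_insert_of_mem ht') ?_) hj hjt
      rintro rfl
      exact ht ht'

/-- Normalized sequences with pairwise disjoint supports. -/
def HjBlk (a : ℕ → ℕ →₀ 𝕜) : Prop :=
  (∀ i, n1 (a i) = 1) ∧ ∀ i i', i ≠ i' → Disjoint (a i).support (a i').support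

theorem hj_n1_comb {ι : Type} {a : ℕ → ℕ →₀ 𝕜} (ha : HjBlk a) (S : Finset ι) (c : ι → 𝕜)
    (k : ι → ℕ) (hk : ∀ t ∈ S, ∀ t' ∈ S, t ≠ t' → k t ≠ k t') :
    n1 (∑ t ∈ S, c t • a (k t)) = ∑ t ∈ S, ‖c t‖ := by
  rw [hj_n1_sum]
  · exact Finset.sum_congr rfl fun t _ => by rw [hj_n1_smul, ha.1, mul_one]
  · intro t ht t' ht' htt
    exact (ha.2 _ _ (hk t ht t' ht' htt)).mono Finsupp.support_smul Finsupp.support_smul

/-- `a'` is eventually in the tail spans of `a`. -/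
def HjSub (a' a : ℕ → ℕ →₀ 𝕜) : Prop :=
  ∀ m, ∀ᶠ i in atTop, a' i ∈ Submodule.span 𝕜 (a '' {k | m ≤ k})

theorem hj_sub_refl (a : ℕ → ℕ →₀ 𝕜) : HjSub a a := fun m =>
  (eventually_ge_atTop m).mono fun i hi => Submodule.subset_span ⟨i, hi, rfl⟩

theorem hj_sub_trans {a b c : ℕ → ℕ →₀ 𝕜} (hab : HjSub a b) (hbc : HjSub b c) : HjSub a c := by
  intro m
  obtain ⟨I, hI⟩ := eventually_atTop.mp (hbc m)
  refine (hab I).mono fun i hi => ?_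
  refine Submodule.span_le.mpr ?_ hi
  rintro _ ⟨j, hj, rfl⟩
  exact hI j hj

theorem hj_H_le {h : ℕ → StrongDual 𝕜 X} (hh : ∀ k, ‖h k‖ ≤ 1) (v : ℕ →₀ 𝕜) (x : X) :
    ‖Finsupp.linearCombination 𝕜 h v x‖ ≤ n1 v * ‖x‖ := by
  rw [Finsupp.linearCombination_apply, Finsupp.sum, sum_apply, n1,
    Finset.sum_mul]
  refine (norm_sum_le _ _).trans (Finset.sum_le_sum fun k _ => ?_)
  rw [smul_apply, norm_smul]
  refine mul_le_mul_of_nonneg_left ?_ (norm_nonneg _)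
  exact ((h k).le_opNorm x).trans (mul_le_of_le_one_left (norm_nonneg _) (hh k))

/-- The eventual uniform bounds of a sequence of functionals on points of the unit ball. -/
def HjD (h : ℕ → StrongDual 𝕜 X) (a : ℕ → ℕ →₀ 𝕜) : Set ℝ :=
  {η | 0 ≤ η ∧ ∀ x : X, ‖x‖ ≤ 1 → ∀ᶠ i in atTop, ‖Finsupp.linearCombination 𝕜 h (a i) x‖ ≤ η}

theorem hj_one_mem {h : ℕ → StrongDual 𝕜 X} (hh : ∀ k, ‖h k‖ ≤ 1) {a : ℕ → ℕ →₀ 𝕜}
    (ha : HjBlk a) : (1 : ℝ) ∈ HjD h a :=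
  ⟨zero_le_one, fun x hx => Eventually.of_forall fun i => by
    have := hj_H_le hh (a i) x
    rw [ha.1, one_mul] at this
    exact this.trans hx⟩

theorem hj_bdd (h : ℕ → StrongDual 𝕜 X) (a : ℕ → ℕ →₀ 𝕜) : BddBelow (HjD h a) :=
  ⟨0, fun _ hη => hη.1⟩

theorem hj_D_mono {h : ℕ → StrongDual 𝕜 X} {a a' : ℕ → ℕ →₀ 𝕜} (ha : HjBlk a) (ha' : HjBlk a')
    (hs : HjSub a' a) : HjD h a ⊆ HjD h a' := by
  rintro η ⟨hη, hx⟩
  refine ⟨hη, fun x hx1 => ?_⟩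
  obtain ⟨m, hm⟩ := eventually_atTop.mp (hx x hx1)
  refine (hs m).mono fun i hi => ?_
  obtain ⟨l, hl, hli⟩ := (Finsupp.mem_span_image_iff_linearCombination 𝕜).mp hi
  have hl' : ∀ k ∈ l.support, m ≤ k := fun k hk => (Finsupp.mem_supported 𝕜 l).mp hl hk
  have e1 : a' i = ∑ k ∈ l.support, l k • a k := by
    rw [← hli, Finsupp.linearCombination_apply, Finsupp.sum]
  have e2 : ∑ k ∈ l.support, ‖l k‖ = 1 := by
    rw [← hj_n1_comb ha l.support l id (fun _ _ _ _ h => h), ← ha'.1 i, e1]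
    rfl
  rw [e1, map_sum, sum_apply]
  calc _ ≤ ∑ k ∈ l.support, ‖l k‖ * η := by
        refine (norm_sum_le _ _).trans (Finset.sum_le_sum fun k hk => ?_)
        rw [map_smul, smul_apply, norm_smul]
        exact mul_le_mul_of_nonneg_left (hm k (hl' k hk)) (norm_nonneg _)
    _ = η := by rw [← Finset.sum_mul, e2, one_mul]

theorem hj_delta_mono {h : ℕ → StrongDual 𝕜 X} (hh : ∀ k, ‖h k‖ ≤ 1) {a a' : ℕ → ℕ →₀ 𝕜}
    (ha : HjBlk a) (ha' : HjBlk a') (hs : HjSub a' a) : sInf (HjD h a') ≤ sInf (HjD h a) :=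
  csInf_le_csInf (hj_bdd h a') ⟨1, hj_one_mem hh ha⟩ (hj_D_mono ha ha' hs)

theorem hj_mem_of_lt {h : ℕ → StrongDual 𝕜 X} (hh : ∀ k, ‖h k‖ ≤ 1) {a : ℕ → ℕ →₀ 𝕜}
    (ha : HjBlk a) {η : ℝ} (hη : sInf (HjD h a) < η) : η ∈ HjD h a := by
  obtain ⟨η', h1, h2⟩ := exists_lt_of_csInf_lt ⟨1, hj_one_mem hh ha⟩ hη
  exact ⟨h1.1.trans h2.le, fun x hx => (h1.2 x hx).mono fun i hi => hi.trans h2.le⟩

theorem hj_next (h : ℕ → StrongDual 𝕜 X) (a : {a : ℕ → ℕ →₀ 𝕜 // HjBlk a}) (n : ℕ) :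
    ∃ a' : {a : ℕ → ℕ →₀ 𝕜 // HjBlk a}, HjSub a'.1 a.1 ∧ ∀ b, HjBlk b → HjSub b a.1 →
      sInf (HjD h a'.1) ≤ sInf (HjD h b) + 1 / ((n : ℝ) + 1) := by
  set E : Set ℝ := {r | ∃ b, HjBlk b ∧ HjSub b a.1 ∧ r = sInf (HjD h b)} with hE
  have hne : E.Nonempty := ⟨_, a.1, a.2, hj_sub_refl _, rfl⟩
  have hb : BddBelow E := ⟨0, by
    rintro _ ⟨b, -, -, rfl⟩
    exact Real.sInf_nonneg fun _ hη => hη.1⟩
  have hpos : (0 : ℝ) < 1 / ((n : ℝ) + 1) := Nat.one_div_pos_of_nat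
  obtain ⟨_, ⟨a', h1, h2, rfl⟩, h3⟩ := exists_lt_of_csInf_lt hne (lt_add_of_pos_right _ hpos)
  refine ⟨⟨a', h1⟩, h2, fun b hb1 hb2 => ?_⟩
  have : sInf E ≤ sInf (HjD h b) := csInf_le hb ⟨b, hb1, hb2, rfl⟩
  linarith

theorem hj_ev_disj {a : ℕ → ℕ →₀ 𝕜} (ha : HjBlk a) (F : Finset ℕ) :
    ∀ᶠ i in atTop, Disjoint F (a i).support := by
  have : ∀ j ∈ F, ∀ᶠ i in atTop, j ∉ (a i).support := by
    intro j _
    by_cases hj : ∃ i0, j ∈ (a i0).support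
    · obtain ⟨i0, hi0⟩ := hj
      refine (eventually_gt_atTop i0).mono fun i hi => ?_
      exact Finset.disjoint_left.mp (ha.2 i0 i hi.ne) hi0
    · exact Eventually.of_forall fun i hi => hj ⟨i, hi⟩
  exact ((eventually_all_finset F).mpr this).mono fun i hi => Finset.disjoint_left.mpr hi

theorem hj_stab {h : ℕ → StrongDual 𝕜 X} (hh : ∀ k, ‖h k‖ ≤ 1) :
    ∃ d : ℕ → ℕ →₀ 𝕜, HjBlk d ∧ ∀ b, HjBlk b → HjSub b d → sInf (HjD h d) ≤ sInf (HjD h b) := by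
  classical
  choose nx hn1 hn2 using hj_next h
  have h0 : HjBlk (fun k => Finsupp.single k (1 : 𝕜)) := by
    refine ⟨fun i => ?_, fun i i' hi => ?_⟩
    · rw [hj_n1_eq _ Finsupp.support_single_subset]
      simp
    · exact (Finset.disjoint_singleton.mpr hi).mono Finsupp.support_single_subset
        Finsupp.support_single_subset
  let a : ℕ → {a : ℕ → ℕ →₀ 𝕜 // HjBlk a} := fun n => Nat.rec ⟨_, h0⟩ (fun n b => nx b n) n
  have ha : ∀ n, a (n + 1) = nx (a n) n := fun _ => rfl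
  have hsub : ∀ m n, m ≤ n → HjSub (a n).1 (a m).1 := by
    intro m n hmn
    induction hmn with
    | refl => exact hj_sub_refl _
    | step _ ih => exact hj_sub_trans (hn1 _ _) ih
  obtain ⟨f, hf1, hf2⟩ := exists_seq_of_forall_finset_exists
    (fun p : ℕ × (ℕ →₀ 𝕜) => n1 p.2 = 1 ∧
      ∀ m ≤ p.1, p.2 ∈ Submodule.span 𝕜 ((a m).1 '' {k | p.1 ≤ k}))
    (fun p q => p.1 < q.1 ∧ Disjoint p.2.support q.2.support) (by
      intro s _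
      set n := s.sup (fun p => p.1) + 1 with hn
      have e1 : ∀ᶠ i in atTop, ∀ m ∈ Finset.range (n + 1),
          (a n).1 i ∈ Submodule.span 𝕜 ((a m).1 '' {k | n ≤ k}) :=
        (eventually_all_finset _).mpr fun m hm =>
          hsub m n (Nat.lt_succ_iff.mp (Finset.mem_range.mp hm)) n
      obtain ⟨i, hi1, hi2⟩ := (e1.and (hj_ev_disj (a n).2 (s.biUnion fun p => p.2.support))).exists
      refine ⟨(n, (a n).1 i), ⟨(a n).2.1 i, fun m hm => hi1 m ?_⟩, fun p hp => ⟨?_, ?_⟩⟩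
      · exact Finset.mem_range.mpr (Nat.lt_succ_iff.mpr hm)
      · exact Nat.lt_succ_of_le (Finset.le_sup (f := fun p : ℕ × (ℕ →₀ 𝕜) => p.1) hp)
      · exact hi2.mono_left (Finset.subset_biUnion_of_mem (fun p : ℕ × (ℕ →₀ 𝕜) => p.2.support) hp))
  have hmono : StrictMono fun n => (f n).1 := fun m n hmn => (hf2 m n hmn).1
  have hd : HjBlk fun n => (f n).2 := by
    refine ⟨fun n => (hf1 n).1, fun i i' hi => ?_⟩
    rcases lt_or_gt_of_ne hi with h1 | h1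
    · exact (hf2 _ _ h1).2
    · exact (hf2 _ _ h1).2.symm
  have hda : ∀ m, HjSub (fun n => (f n).2) (a m).1 := by
    intro m p
    refine (eventually_ge_atTop (max m p)).mono fun n hn => ?_
    have h1 : n ≤ (f n).1 := hmono.id_le n
    refine Submodule.span_mono (Set.image_mono ?_) ((hf1 n).2 m (by omega))
    intro k hk
    have hk' : (f n).1 ≤ k := hk
    change p ≤ k
    omega
  refine ⟨_, hd, fun b hb hbd => ?_⟩
  refine le_of_forall_pos_le_add fun ε hε => ?_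
  obtain ⟨n, hn⟩ := exists_nat_one_div_lt hε
  have h1 := hn2 (a n) n b hb (hj_sub_trans hbd (hda n))
  have h2 := hj_delta_mono hh (a (n + 1)).2 hd (hda (n + 1))
  rw [ha] at h2
  linarith

theorem hj_close {w : 𝕜} {δ ε N : ℝ} (hδ : 0 < δ) (hε : 0 < ε) (hN : 1 ≤ N)
    (hεN : 320 * N * ε ≤ 1) (h1 : ‖w‖ ≤ δ * (1 + ε))
    (h2 : δ * (1 + ε - 2 * N * ε) ≤ RCLike.re w) : ‖w - (δ : 𝕜)‖ ≤ δ / 8 := by
  have e : ‖w - (δ : 𝕜)‖ ^ 2 = ‖w‖ ^ 2 - 2 * δ * RCLike.re w + δ ^ 2 := by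
    rw [← RCLike.normSq_eq_def', ← RCLike.normSq_eq_def', RCLike.normSq_apply,
      RCLike.normSq_apply]
    simp only [map_sub, RCLike.ofReal_re, RCLike.ofReal_im]
    ring
  have h3 : ‖w‖ ^ 2 ≤ (δ * (1 + ε)) ^ 2 := pow_le_pow_left₀ (norm_nonneg _) h1 2
  have hε1 : ε ≤ N := by nlinarith
  have h4 : ε ^ 2 + 4 * N * ε ≤ 1 / 64 := by nlinarith
  refine (pow_le_pow_iff_left₀ (norm_nonneg _) (by positivity) two_ne_zero).mp ?_
  rw [e]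
  have h5 : 2 * δ * (δ * (1 + ε - 2 * N * ε)) ≤ 2 * δ * RCLike.re w :=
    mul_le_mul_of_nonneg_left h2 (by positivity)
  have h6 : δ ^ 2 * (ε ^ 2 + 4 * N * ε) ≤ δ ^ 2 * (1 / 64) :=
    mul_le_mul_of_nonneg_left h4 (by positivity)
  nlinarith

theorem hj_inj {ι : Type} [Countable ι] (A : ι → Set ℕ) (hA : ∀ i, (A i).Infinite) :
    ∃ k : ι → ℕ, Function.Injective k ∧ ∀ i, k i ∈ A i := by
  obtain ⟨e, he⟩ := exists_injective_nat ι
  obtain ⟨φ, h1, h2⟩ := extraction_forall_of_frequently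
    (P := fun n k => ∀ i, e i = n → k ∈ A i) (by
      intro n
      by_cases hn : ∃ i, e i = n
      · obtain ⟨i, rfl⟩ := hn
        refine (Nat.frequently_atTop_iff_infinite.mpr (hA i)).mono fun k hk j hj => ?_
        rw [he hj]
        exact hk
      · exact Frequently.of_forall fun k i hi => (hn ⟨i, hi⟩).elim)
  exact ⟨fun i => φ (e i), h1.injective.comp he, fun i => h2 _ i rfl⟩

theorem hj_split {h : ℕ → StrongDual 𝕜 X} (hh : ∀ k, ‖h k‖ ≤ 1) {d : ℕ → ℕ →₀ 𝕜} (hd : HjBlk d)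
    (hst : ∀ b, HjBlk b → HjSub b d → sInf (HjD h d) ≤ sInf (HjD h b)) {δ : ℝ}
    (hδd : δ = sInf (HjD h d)) (hδ : 0 < δ) {Z : Set 𝕜} (hZ : Z.Finite) (hZ1 : ∀ ζ ∈ Z, ‖ζ‖ = 1)
    (hZ2 : ∀ θ : 𝕜, ‖θ‖ = 1 → ∃ ζ ∈ Z, ‖θ - ζ‖ ≤ 1 / 16) (𝓜 : Set (Set ℕ)) (h𝓜 : 𝓜.Finite)
    (hinf : ∀ M ∈ 𝓜, M.Infinite) : ∃ x : X, ‖x‖ ≤ 1 ∧ ∀ M ∈ 𝓜, ∀ ζ ∈ Z,
      (M ∩ {k | ‖Finsupp.linearCombination 𝕜 h (d k) x - δ * ζ‖ ≤ δ / 4}).Infinite := by
  classical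
  have : Fintype 𝓜 := h𝓜.fintype
  have : Fintype Z := hZ.fintype
  rcases isEmpty_or_nonempty (𝓜 × Z) with hT | hT
  · exact ⟨0, by simp, fun M hM ζ hζ => (hT.false (⟨M, hM⟩, ⟨ζ, hζ⟩)).elim⟩
  set N : ℕ := Fintype.card (𝓜 × Z) with hN
  have hN1 : (1 : ℝ) ≤ N := by exact_mod_cast Fintype.card_pos
  have hN0 : (0 : ℝ) < N := by linarith
  obtain ⟨k, hk1, hk2⟩ := hj_inj (fun p : ℕ × (𝓜 × Z) => (p.2.1 : Set ℕ)) fun p => hinf _ p.2.1.2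
  have hki : ∀ t, Function.Injective fun i => k (i, t) := fun t i j hij =>
    congrArg Prod.fst (hk1 hij)
  have hkt : ∀ t, Tendsto (fun i => k (i, t)) atTop atTop := fun t => by
    rw [← Nat.cofinite_eq_atTop]
    exact (hki t).tendsto_cofinite
  set c : 𝓜 × Z → 𝕜 := fun t => (N : 𝕜)⁻¹ * (starRingEnd 𝕜) (t.2 : 𝕜) with hc
  set b : ℕ → ℕ →₀ 𝕜 := fun i => ∑ t, c t • d (k (i, t)) with hb
  have hbB : HjBlk b := by
    refine ⟨fun i => ?_, fun i i' hi => ?_⟩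
    · rw [hb]
      beta_reduce
      rw [hj_n1_comb hd _ c _ (fun t _ t' _ htt e => htt (congrArg Prod.snd (hk1 e)))]
      have : ∀ t, ‖c t‖ = (N : ℝ)⁻¹ := fun t => by
        rw [hc]
        beta_reduce
        rw [norm_mul, RCLike.norm_conj, hZ1 _ t.2.2, norm_inv, RCLike.norm_natCast, mul_one]
      simp only [this, Finset.sum_const, Finset.card_univ, nsmul_eq_mul]
      exact mul_inv_cancel₀ hN0.ne'
    · refine Finset.disjoint_left.mpr fun j hj hj' => ?_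
      obtain ⟨t, -, ht⟩ := hj_mem_support_sum hj
      obtain ⟨t', -, ht'⟩ := hj_mem_support_sum hj'
      exact Finset.disjoint_left.mp (hd.2 _ _ fun e => hi (congrArg Prod.fst (hk1 e)))
        (Finsupp.support_smul ht) (Finsupp.support_smul ht')
  have hbd : HjSub b d := fun m =>
    (eventually_all.mpr fun t => (hkt t).eventually (eventually_ge_atTop m)).mono fun i hi =>
      Submodule.sum_mem _ fun t _ => Submodule.smul_mem _ _ (Submodule.subset_span ⟨_, hi t, rfl⟩)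
  set ε : ℝ := 1 / (320 * N) with hε
  have hε0 : 0 < ε := by positivity
  have hεN : 320 * N * ε = 1 := by rw [hε]; field_simp
  have hε1 : ε ≤ 1 / 320 := by nlinarith
  have h1 : δ * (1 - ε) ∉ HjD h b := fun hm => by
    have := (hst b hbB hbd).trans (csInf_le (hj_bdd h b) hm)
    nlinarith
  have h2 : δ * (1 + ε) ∈ HjD h d := hj_mem_of_lt hh hd (by nlinarith)
  obtain ⟨x, hx, hfr⟩ : ∃ x : X, ‖x‖ ≤ 1 ∧
      ∃ᶠ i in atTop, δ * (1 - ε) < ‖Finsupp.linearCombination 𝕜 h (b i) x‖ := by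
    by_contra hcon
    refine h1 ⟨by nlinarith, fun x hx => ?_⟩
    by_contra hne
    exact hcon ⟨x, hx, (not_eventually.mp hne).mono fun i hi => not_le.mp hi⟩
  set w : ℕ → 𝓜 × Z → 𝕜 := fun i t =>
    (starRingEnd 𝕜) (t.2 : 𝕜) * Finsupp.linearCombination 𝕜 h (d (k (i, t))) x with hw
  have h3 : ∀ᶠ i in atTop, ∀ t, ‖w i t‖ ≤ δ * (1 + ε) :=
    (eventually_all.mpr fun t => (hkt t).eventually (h2.2 x hx)).mono fun i hi t => by
      rw [hw]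
      beta_reduce
      rw [norm_mul, RCLike.norm_conj, hZ1 _ t.2.2, one_mul]
      exact hi t
  have h4 : ∃ᶠ i in atTop, ∃ θ ∈ Z, ∀ t, ‖θ * w i t - δ‖ ≤ δ / 4 := by
    refine (hfr.and_eventually h3).mono fun i ⟨hi1, hi2⟩ => ?_
    have e1 : Finsupp.linearCombination 𝕜 h (b i) x = (N : 𝕜)⁻¹ * ∑ t, w i t := by
      rw [hb]
      beta_reduce
      rw [map_sum, sum_apply, Finset.mul_sum]
      refine Finset.sum_congr rfl fun t _ => ?_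
      rw [map_smul, smul_apply, smul_eq_mul, mul_assoc]
    rw [e1, norm_mul, norm_inv, RCLike.norm_natCast, lt_inv_mul_iff₀ hN0] at hi1
    obtain ⟨θ, hθ1, hθ2⟩ := RCLike.exists_norm_eq_mul_self (∑ t, w i t)
    have e2 : ‖∑ t, w i t‖ = ∑ t, RCLike.re (θ * w i t) := by
      rw [← map_sum, ← Finset.mul_sum, ← hθ2, RCLike.ofReal_re]
    have hn : ∀ t, ‖θ * w i t‖ ≤ δ * (1 + ε) := fun t => by
      rw [norm_mul, hθ1, one_mul]
      exact hi2 t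
    obtain ⟨θ', hθ'1, hθ'2⟩ := hZ2 θ hθ1
    refine ⟨θ', hθ'1, fun t => ?_⟩
    have e3 : ∑ s ∈ Finset.univ.erase t, RCLike.re (θ * w i s) ≤ (N - 1) * (δ * (1 + ε)) := by
      refine (Finset.sum_le_card_nsmul _ _ _ fun s _ => (RCLike.re_le_norm _).trans (hn s)).trans ?_
      rw [Finset.card_erase_of_mem (Finset.mem_univ t), Finset.card_univ, nsmul_eq_mul, ← hN,
        Nat.cast_sub (by exact_mod_cast hN1), Nat.cast_one]
    rw [e2, ← Finset.add_sum_erase _ _ (Finset.mem_univ t)] at hi1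
    have e4 := hj_close hδ hε0 hN1 hεN.le (hn t) (by nlinarith)
    have e5 : ‖(θ - θ') * w i t‖ ≤ 1 / 16 * (δ * (1 + ε)) := by
      rw [norm_mul]
      exact mul_le_mul hθ'2 (hi2 t) (norm_nonneg _) (by norm_num)
    have e6 : θ' * w i t - δ = (θ * w i t - δ) - (θ - θ') * w i t := by ring
    rw [e6]
    refine (norm_sub_le _ _).trans ?_
    nlinarith
  obtain ⟨θ, hθ, h5⟩ := (frequently_exists_finite hZ).mp h4
  refine ⟨θ • x, by rw [norm_smul, hZ1 θ hθ, one_mul]; exact hx, fun M hM ζ hζ => ?_⟩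
  refine ((Nat.frequently_atTop_iff_infinite.mp h5).image
    (hki (⟨M, hM⟩, ⟨ζ, hζ⟩)).injOn).mono ?_
  rintro _ ⟨i, hi, rfl⟩
  refine ⟨hk2 (i, (⟨M, hM⟩, ⟨ζ, hζ⟩)), ?_⟩
  have h6 := hi (⟨M, hM⟩, ⟨ζ, hζ⟩)
  have h7 : ζ * (starRingEnd 𝕜) ζ = 1 := by rw [RCLike.mul_conj, hZ1 ζ hζ]; simp
  change ‖Finsupp.linearCombination 𝕜 h (d (k (i, (⟨M, hM⟩, ⟨ζ, hζ⟩)))) (θ • x) - δ * ζ‖ ≤ δ / 4
  have h8 : Finsupp.linearCombination 𝕜 h (d (k (i, (⟨M, hM⟩, ⟨ζ, hζ⟩)))) (θ • x) - δ * ζ =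
      ζ * (θ * w i (⟨M, hM⟩, ⟨ζ, hζ⟩) - δ) := by
    rw [map_smul, smul_eq_mul, hw]
    beta_reduce
    linear_combination
      (-θ * Finsupp.linearCombination 𝕜 h (d (k (i, (⟨M, hM⟩, ⟨ζ, hζ⟩)))) x) * h7
  rw [h8, norm_mul, hZ1 ζ hζ, one_mul]
  exact h6

theorem hj_ell1 {g : ℕ → StrongDual 𝕜 X} (hg : ∀ k x, ‖g k x‖ ≤ ‖x‖) {δ : ℝ} (hδ : 0 < δ)
    {Z : Set 𝕜} (hZ : Z.Finite) (hZ2 : ∀ θ : 𝕜, ‖θ‖ = 1 → ∃ ζ ∈ Z, ‖θ - ζ‖ ≤ 1 / 16)
    (hsp : ∀ 𝓜 : Set (Set ℕ), ∃ x : X, ‖x‖ ≤ 1 ∧ (𝓜.Finite → (∀ M ∈ 𝓜, M.Infinite) →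
      ∀ M ∈ 𝓜, ∀ ζ ∈ Z, (M ∩ {k | ‖g k x - δ * ζ‖ ≤ δ / 4}).Infinite)) :
    ∃ (x : ℕ → X) (c : ℝ), 0 < c ∧ (∀ n, ‖x n‖ ≤ 1) ∧
      ∀ b : ℕ →₀ 𝕜, c * n1 b ≤ ‖Finsupp.linearCombination 𝕜 x b‖ := by
  choose f hf1 hf2 using hsp
  let 𝓜 : ℕ → Set (Set ℕ) := fun n => Nat.rec {Set.univ}
    (fun _ Q => Set.image2 (fun M ζ => M ∩ {k | ‖g k (f Q) - δ * ζ‖ ≤ δ / 4}) Q Z) n
  have h𝓜 : ∀ n, 𝓜 (n + 1) =
      Set.image2 (fun M ζ => M ∩ {k | ‖g k (f (𝓜 n)) - δ * ζ‖ ≤ δ / 4}) (𝓜 n) Z := fun _ => rfl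
  have h1 : ∀ n, (𝓜 n).Finite ∧ ∀ M ∈ 𝓜 n, M.Infinite := by
    intro n
    induction n with
    | zero =>
      refine ⟨Set.finite_singleton _, fun M hM => ?_⟩
      rw [Set.mem_singleton_iff.mp hM]
      exact Set.infinite_univ
    | succ n ih =>
      rw [h𝓜]
      refine ⟨ih.1.image2 _ hZ, ?_⟩
      rintro _ ⟨M, hM, ζ, hζ, rfl⟩
      exact hf2 _ ih.1 ih.2 M hM ζ hζ
  have h2 : ∀ s : ℕ → 𝕜, (∀ j, s j ∈ Z) → ∀ n, ∃ M ∈ 𝓜 n, ∀ k ∈ M, ∀ j < n,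
      ‖g k (f (𝓜 j)) - δ * s j‖ ≤ δ / 4 := by
    intro s hs n
    induction n with
    | zero => exact ⟨Set.univ, rfl, fun k _ j hj => absurd hj (Nat.not_lt_zero j)⟩
    | succ n ih =>
      obtain ⟨M, hM, hk⟩ := ih
      refine ⟨_, by rw [h𝓜]; exact Set.mem_image2_of_mem hM (hs n), fun k hk' j hj => ?_⟩
      rcases Nat.lt_succ_iff_lt_or_eq.mp hj with hj | rfl
      · exact hk k hk'.1 j hj
      · exact hk'.2
  refine ⟨fun n => f (𝓜 n), δ / 2, by positivity, fun n => hf1 _, fun b => ?_⟩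
  have h3 : ∀ j, ∃ ζ ∈ Z, 3 / 4 * ‖b j‖ ≤ RCLike.re (b j * ζ) := by
    intro j
    obtain ⟨θ, hθ1, hθ2⟩ := RCLike.exists_norm_eq_mul_self (b j)
    obtain ⟨ζ, hζ, hζ'⟩ := hZ2 θ hθ1
    refine ⟨ζ, hζ, ?_⟩
    have e1 : b j * ζ = (‖b j‖ : 𝕜) - b j * (θ - ζ) := by rw [hθ2]; ring
    have e2 : RCLike.re (b j * (θ - ζ)) ≤ ‖b j‖ * (1 / 16) := by
      refine (RCLike.re_le_norm _).trans ?_
      rw [norm_mul]
      exact mul_le_mul_of_nonneg_left hζ' (norm_nonneg _)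
    rw [e1, map_sub, RCLike.ofReal_re]
    linarith [norm_nonneg (b j)]
  choose s hs1 hs2 using h3
  obtain ⟨M, hM, hk⟩ := h2 s hs1 (b.support.sup id + 1)
  obtain ⟨k, hkM⟩ := ((h1 (b.support.sup id + 1)).2 M hM).nonempty
  refine le_trans ?_ ((RCLike.re_le_norm _).trans (hg k _))
  rw [Finsupp.linearCombination_apply, Finsupp.sum, map_sum, map_sum, n1, Finset.mul_sum]
  refine Finset.sum_le_sum fun j hj => ?_
  have e1 := hk k hkM j (Nat.lt_succ_of_le (Finset.le_sup (f := id) hj))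
  have e2 : g k (b j • f (𝓜 j)) = δ * (b j * s j) - b j * (δ * s j - g k (f (𝓜 j))) := by
    rw [map_smul, smul_eq_mul]; ring
  have e3 : RCLike.re (b j * (δ * s j - g k (f (𝓜 j)))) ≤ ‖b j‖ * (δ / 4) := by
    refine (RCLike.re_le_norm _).trans ?_
    rw [norm_mul, norm_sub_rev]
    exact mul_le_mul_of_nonneg_left e1 (norm_nonneg _)
  rw [e2, map_sub, RCLike.re_ofReal_mul]
  have e4 := mul_le_mul_of_nonneg_left (hs2 j) hδ.le
  nlinarith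

theorem hagler_johnson {h : ℕ → StrongDual 𝕜 X} (hh : ∀ k, ‖h k‖ ≤ 1) :
    (∃ a : ℕ → ℕ →₀ 𝕜, (∀ i, n1 (a i) = 1) ∧
      (∀ i i', i ≠ i' → Disjoint (a i).support (a i').support) ∧
      ∀ x : X, Tendsto (fun i => Finsupp.linearCombination 𝕜 h (a i) x) atTop (𝓝 0)) ∨
    ∃ (x : ℕ → X) (c : ℝ), 0 < c ∧ (∀ n, ‖x n‖ ≤ 1) ∧
      ∀ b : ℕ →₀ 𝕜, c * n1 b ≤ ‖Finsupp.linearCombination 𝕜 x b‖ := by
  obtain ⟨d, hd, hst⟩ := hj_stab hh
  by_cases hδ : 0 < sInf (HjD h d)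
  · right
    obtain ⟨Z, hZ1, hZ, hZ2⟩ := finite_cover_balls_of_compact (isCompact_sphere (0 : 𝕜) 1)
      (show (0 : ℝ) < 1 / 16 by norm_num)
    have hZ1' : ∀ ζ ∈ Z, ‖ζ‖ = 1 := fun ζ hζ => mem_sphere_zero_iff_norm.mp (hZ1 hζ)
    have hZ2' : ∀ θ : 𝕜, ‖θ‖ = 1 → ∃ ζ ∈ Z, ‖θ - ζ‖ ≤ 1 / 16 := fun θ hθ => by
      obtain ⟨ζ, hζ, hm⟩ := Set.mem_iUnion₂.mp (hZ2 (mem_sphere_zero_iff_norm.mpr hθ))
      exact ⟨ζ, hζ, (mem_ball_iff_norm.mp hm).le⟩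
    refine hj_ell1 (g := fun k => Finsupp.linearCombination 𝕜 h (d k)) (fun k x => ?_) hδ hZ hZ2'
      fun 𝓜 => ?_
    · have := hj_H_le hh (d k) x
      rwa [hd.1, one_mul] at this
    · by_cases hm : 𝓜.Finite ∧ ∀ M ∈ 𝓜, M.Infinite
      · obtain ⟨x, hx1, hx2⟩ := hj_split hh hd hst rfl hδ hZ hZ1' hZ2' 𝓜 hm.1 hm.2
        exact ⟨x, hx1, fun _ _ => hx2⟩
      · exact ⟨0, by simp, fun h1 h2 => (hm ⟨h1, h2⟩).elim⟩
  · left
    refine ⟨d, hd.1, hd.2, fun x => ?_⟩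
    have key : ∀ y : X, ‖y‖ ≤ 1 →
        Tendsto (fun i => Finsupp.linearCombination 𝕜 h (d i) y) atTop (𝓝 0) := by
      intro y hy
      refine Metric.tendsto_nhds.mpr fun ε hε => ?_
      have := (hj_mem_of_lt hh hd (η := ε / 2) (by linarith [not_lt.mp hδ])).2 y hy
      exact this.mono fun i hi => by rw [dist_zero_right]; linarith
    obtain ⟨c, hc⟩ := NormedField.exists_lt_norm 𝕜 (‖x‖ + 1)
    have hc0 : 0 < ‖c‖ := by linarith [norm_nonneg x]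
    have hc' : c ≠ 0 := norm_pos_iff.mp hc0
    have h1 := (key (c⁻¹ • x) (by
      rw [norm_smul, norm_inv, inv_mul_le_iff₀ hc0]; linarith)).const_mul c
    rw [mul_zero] at h1
    refine h1.congr fun i => ?_
    rw [map_smul, smul_eq_mul, mul_inv_cancel_left₀ hc']

end Vale.Agent.P129.Pos
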