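import Vale.Agent.P129.Pos.Quot

/-!
P129, positive direction, file L1: a space containing `ℓ¹` has a separable quotient (namely `ℓ²`).

Plan.  `exists_ext_l1`: Hahn-Banach from the span of the `x n`.
Let `D` be a countable dense subset of `𝕜` containing `0` and `1`, and let `β n` enumerate the
`b : ℕ →₀ 𝕜` with values in `D` and `∑ ‖b k‖² ≤ 1`.  For real `α` with `∑ α k ² ≤ 1`, a level `N` and
`t : Fin N → Bool` (signs `σ t k = ±1`) let `U α N t = Im ∏ k < N, (1 + i α k σ t k)` (in `ℂ`); then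
`|U| ≤ exp (1/2) ≤ 2` and `2^(-N) ∑ t, σ t j * U α N t = α j` for `j < N` (Riesz product).  For
`b = α + I α'` use `U α + I * U α'` (norm `≤ 4`).  Let `φ N t` be a functional of norm `≤ 4 / c` with these
values at `x n` (for `b = β n`), `ψ N j = 2^(-N) ∑ t, σ t j • φ N t`; Bessel on the cube (for real and
imaginary parts) gives `∑ j < J, ‖ψ N j y‖² ≤ (4/c)² ‖y‖²` for `J ≤ N`.  Let `ψ j` be the pointwise
limit of `ψ N j` along `hyperfilter ℕ`; `ψ j (x n) = β n j`.  Apply `iter_approx` with `Y = univ`,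
`p y = sqrt (∑' ‖ψ j y‖²)`, `E` the closed span of the `x n`, `e = (2 p y) • x n` for `β n` close to
the truncation of `ψ y / (2 p y)`; then `sq_of_dense`.
-/

namespace Vale.Agent.P129.Pos

open Filter Topology

variable {𝕜 X : Type} [RCLike 𝕜] [NormedAddCommGroup X] [NormedSpace 𝕜 X]

theorem exists_ext_l1 {x : ℕ → X} {c : ℝ} (hc : 0 < c)
    (h : ∀ b : ℕ →₀ 𝕜, c * n1 b ≤ ‖Finsupp.linearCombination 𝕜 x b‖) {v : ℕ → 𝕜} {B : ℝ}
    (hv : ∀ n, ‖v n‖ ≤ B) : ∃ φ : StrongDual 𝕜 X, ‖φ‖ ≤ B / c ∧ ∀ n, φ (x n) = v n := by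
  set L := Finsupp.linearCombination 𝕜 x with hL
  have hB : 0 ≤ B := (norm_nonneg _).trans (hv 0)
  have hbound : ∀ b : ℕ →₀ 𝕜, ‖Finsupp.linearCombination 𝕜 v b‖ ≤ B / c * ‖L b‖ := by
    intro b
    have h1 : ‖Finsupp.linearCombination 𝕜 v b‖ ≤ B * n1 b := by
      rw [Finsupp.linearCombination_apply, Finsupp.sum, n1, Finset.mul_sum]
      refine (norm_sum_le _ _).trans (Finset.sum_le_sum fun k _ => ?_)
      rw [norm_smul, mul_comm]
      exact mul_le_mul_of_nonneg_right (hv k) (norm_nonneg _)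
    have h2 : n1 b ≤ ‖L b‖ / c := by
      rw [le_div_iff₀ hc, mul_comm]
      exact h b
    calc _ ≤ B * n1 b := h1
      _ ≤ B * (‖L b‖ / c) := mul_le_mul_of_nonneg_left h2 hB
      _ = _ := by ring
  have hinj : Function.Injective L := by
    rw [injective_iff_map_eq_zero]
    intro b hb
    have h1 := h b
    rw [hb, norm_zero] at h1
    have h2 : n1 b ≤ 0 := by
      by_contra h3
      have := mul_pos hc (not_le.mp h3)
      linarith
    ext k
    by_contra hk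
    have hk' : k ∈ b.support := Finsupp.mem_support_iff.mpr hk
    have h3 : ‖b k‖ ≤ n1 b :=
      Finset.single_le_sum (f := fun k => ‖b k‖) (fun i _ => norm_nonneg _) hk'
    exact hk (norm_le_zero_iff.mp (h3.trans h2))
  let e := LinearEquiv.ofInjective L hinj
  let f0 : LinearMap.range L →ₗ[𝕜] 𝕜 := (Finsupp.linearCombination 𝕜 v) ∘ₗ e.symm.toLinearMap
  have he : ∀ b, (e b : X) = L b := fun b => rfl
  have hf0 : ∀ y, ‖f0 y‖ ≤ B / c * ‖y‖ := by
    intro y
    obtain ⟨b, rfl⟩ := e.surjective y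
    have : f0 (e b) = Finsupp.linearCombination 𝕜 v b := by simp [f0]
    rw [this]
    exact hbound b
  obtain ⟨g, hg, hgn⟩ := exists_extension_norm_eq (LinearMap.range L) (f0.mkContinuous _ hf0)
  refine ⟨g, ?_, fun n => ?_⟩
  · rw [hgn]
    exact LinearMap.mkContinuous_norm_le _ (div_nonneg hB hc.le) _
  · have h1 := hg (e (Finsupp.single n 1))
    rw [he] at h1
    have h2 : L (Finsupp.single n 1) = x n := by simp [hL]
    rw [h2] at h1
    rw [h1]
    simp [f0]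

/-- The sign attached to a Boolean. -/
def l1sg (b : Bool) : ℝ := if b then 1 else -1

theorem l1sg_sq (b : Bool) : l1sg b * l1sg b = 1 := by
  cases b <;> simp [l1sg]

theorem l1_cube_sum {R : Type} [CommSemiring R] {N : ℕ} (g : Fin N → Bool → R) :
    ∑ t : Fin N → Bool, ∏ k, g k (t k) = ∏ k, (g k true + g k false) := by
  rw [← Fintype.piFinset_univ, ← Finset.prod_univ_sum]
  simp

theorem l1_riesz {N : ℕ} (α : Fin N → ℝ) (hα : ∑ k, α k ^ 2 ≤ 1) :
    ∃ U : (Fin N → Bool) → ℝ, (∀ t, |U t| ≤ 2) ∧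
      ∀ j, ∑ t : Fin N → Bool, l1sg (t j) * U t = 2 ^ N * α j := by
  let P : (Fin N → Bool) → ℂ := fun t => ∏ k, (1 + Complex.I * (α k * l1sg (t k) : ℝ))
  refine ⟨fun t => (P t).im, fun t => ?_, fun j => ?_⟩
  · have h1 : Complex.normSq (P t) ≤ 4 := by
      have h2 : Complex.normSq (P t) = ∏ k, (α k ^ 2 + 1) := by
        simp only [P, map_prod]
        refine Finset.prod_congr rfl fun k _ => ?_
        have h3 := l1sg_sq (t k)
        rw [Complex.normSq_apply]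
        simp only [Complex.add_re, Complex.one_re, Complex.mul_re, Complex.I_re, Complex.I_im,
          Complex.ofReal_re, Complex.ofReal_im, Complex.add_im, Complex.one_im, Complex.mul_im]
        linear_combination (α k ^ 2) * h3
      rw [h2]
      calc ∏ k, (α k ^ 2 + 1) ≤ ∏ k, Real.exp (α k ^ 2) :=
            Finset.prod_le_prod (fun k _ => by positivity) fun k _ => Real.add_one_le_exp _
        _ = Real.exp (∑ k, α k ^ 2) := (Real.exp_sum _ _).symm
        _ ≤ Real.exp 1 := Real.exp_le_exp.mpr hα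
        _ ≤ 4 := by linarith [Real.exp_one_lt_d9]
    rw [Complex.normSq_apply] at h1
    rw [abs_le]
    constructor <;> nlinarith [mul_self_nonneg (P t).re]
  · have h1 : ∑ t : Fin N → Bool, (l1sg (t j) : ℂ) * P t = 2 ^ N * (Complex.I * α j) := by
      have h2 : ∀ t : Fin N → Bool, (l1sg (t j) : ℂ) * P t =
          ∏ k, ((if k = j then (l1sg (t k) : ℂ) else 1) *
            (1 + Complex.I * (α k * l1sg (t k) : ℝ))) := by
        intro t
        rw [Finset.prod_mul_distrib, Finset.prod_ite_eq']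
        simp [P]
      simp only [h2]
      rw [l1_cube_sum (fun k b => (if k = j then (l1sg b : ℂ) else 1) *
            (1 + Complex.I * (α k * l1sg b : ℝ)))]
      have h3 : ∀ k : Fin N, ((if k = j then (l1sg true : ℂ) else 1) *
            (1 + Complex.I * (α k * l1sg true : ℝ)) + (if k = j then (l1sg false : ℂ) else 1) *
            (1 + Complex.I * (α k * l1sg false : ℝ))) =
            2 * (if k = j then Complex.I * α k else 1) := by
        intro k
        by_cases hk : k = j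
        · simp [hk, l1sg]
          ring
        · simp [hk, l1sg]
          ring
      simp only [h3]
      rw [Finset.prod_mul_distrib, Finset.prod_ite_eq']
      simp
    have h4 := congrArg Complex.im h1
    rw [Complex.im_sum] at h4
    have h5 : ((2 : ℂ) ^ N * (Complex.I * α j)) = ((2 ^ N * α j : ℝ) : ℂ) * Complex.I := by
      push_cast
      ring
    rw [h5, Complex.mul_I_im, Complex.ofReal_re] at h4
    simpa only [Complex.im_ofReal_mul] using h4

theorem l1_riesz' {N : ℕ} (β : Fin N → 𝕜) (hβ : ∑ k, ‖β k‖ ^ 2 ≤ 1) :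
    ∃ U : (Fin N → Bool) → 𝕜, (∀ t, ‖U t‖ ≤ 4) ∧
      ∀ j, ∑ t : Fin N → Bool, (l1sg (t j) : 𝕜) * U t = 2 ^ N * β j := by
  obtain ⟨U, hU, hU'⟩ := l1_riesz (fun k => RCLike.re (β k)) (by
    refine le_trans (Finset.sum_le_sum fun k _ => ?_) hβ
    rw [← sq_abs]
    exact pow_le_pow_left₀ (abs_nonneg _) (RCLike.abs_re_le_norm _) 2)
  obtain ⟨V, hV, hV'⟩ := l1_riesz (fun k => RCLike.im (β k)) (by
    refine le_trans (Finset.sum_le_sum fun k _ => ?_) hβ
    rw [← sq_abs]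
    exact pow_le_pow_left₀ (abs_nonneg _) (RCLike.abs_im_le_norm _) 2)
  refine ⟨fun t => (U t : 𝕜) + (V t : 𝕜) * RCLike.I, fun t => ?_, fun j => ?_⟩
  · refine (norm_add_le _ _).trans ?_
    rw [norm_mul, RCLike.norm_ofReal, RCLike.norm_ofReal]
    have h1 : ‖(RCLike.I : 𝕜)‖ ≤ 1 := by
      by_cases hI : (RCLike.I : 𝕜) = 0
      · simp [hI]
      · exact (RCLike.norm_I_of_ne_zero hI).le
    have h2 := hU t
    have h3 := hV t
    nlinarith [abs_nonneg (V t), norm_nonneg (RCLike.I : 𝕜)]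
  · have h1 : ∑ t : Fin N → Bool, (l1sg (t j) : 𝕜) * ((U t : 𝕜) + (V t : 𝕜) * RCLike.I) =
        ((∑ t : Fin N → Bool, l1sg (t j) * U t : ℝ) : 𝕜) +
          ((∑ t : Fin N → Bool, l1sg (t j) * V t : ℝ) : 𝕜) * RCLike.I := by
      push_cast
      rw [Finset.sum_mul, ← Finset.sum_add_distrib]
      exact Finset.sum_congr rfl fun t _ => by ring
    rw [h1, hU', hV']
    conv_rhs => rw [← RCLike.re_add_im (β j)]
    push_cast
    ring

theorem l1_orth {N : ℕ} (i j : Fin N) :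
    ∑ t : Fin N → Bool, l1sg (t i) * l1sg (t j) = if i = j then 2 ^ N else 0 := by
  by_cases hij : i = j
  · simp [hij, l1sg_sq]
  · rw [if_neg hij]
    have h2 : ∀ t : Fin N → Bool, l1sg (t i) * l1sg (t j) =
        ∏ k, ((if k = i then l1sg (t k) else 1) * (if k = j then l1sg (t k) else 1)) := by
      intro t
      rw [Finset.prod_mul_distrib, Finset.prod_ite_eq', Finset.prod_ite_eq']
      simp
    simp only [h2]
    rw [l1_cube_sum (fun k b => (if k = i then l1sg b else 1) * (if k = j then l1sg b else 1))]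
    refine Finset.prod_eq_zero (Finset.mem_univ i) ?_
    simp [hij, l1sg]

theorem l1_bessel {N : ℕ} (f : (Fin N → Bool) → 𝕜) {M : ℝ} (hf : ∀ t, ‖f t‖ ≤ M) :
    ∑ j : Fin N, ‖((2 : 𝕜) ^ N)⁻¹ * ∑ t : Fin N → Bool, (l1sg (t j) : 𝕜) * f t‖ ^ 2 ≤ M ^ 2 := by
  set r : ℝ := (Real.sqrt (2 ^ N))⁻¹ with hr
  have hr2 : r * r = (2 ^ N)⁻¹ := by
    rw [hr, ← mul_inv, Real.mul_self_sqrt (by positivity)]
  have hr2' : (r : 𝕜) * r = (2 ^ N)⁻¹ := by
    rw [← RCLike.ofReal_mul, hr2]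
    push_cast
    rfl
  let v : Fin N → EuclideanSpace 𝕜 (Fin N → Bool) :=
    fun j => WithLp.toLp 2 fun t => ((r * l1sg (t j) : ℝ) : 𝕜)
  let y : EuclideanSpace 𝕜 (Fin N → Bool) := WithLp.toLp 2 fun t => (r : 𝕜) * f t
  have hv : Orthonormal 𝕜 v := by
    rw [orthonormal_iff_ite]
    intro i j
    have h1 : inner 𝕜 (v i) (v j) =
        ((r * r * ∑ t : Fin N → Bool, l1sg (t i) * l1sg (t j) : ℝ) : 𝕜) := by
      rw [PiLp.inner_apply, Finset.mul_sum, RCLike.ofReal_sum]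
      refine Finset.sum_congr rfl fun t _ => ?_
      simp only [v, RCLike.inner_apply, RCLike.conj_ofReal]
      push_cast
      ring
    rw [h1, l1_orth, hr2]
    by_cases hij : i = j
    · simp [hij]
    · simp [hij]
  have h1 := hv.sum_inner_products_le y (s := Finset.univ)
  have h2 : ∀ j, inner 𝕜 (v j) y =
      ((2 : 𝕜) ^ N)⁻¹ * ∑ t : Fin N → Bool, (l1sg (t j) : 𝕜) * f t := by
    intro j
    rw [PiLp.inner_apply, ← hr2', Finset.mul_sum]
    refine Finset.sum_congr rfl fun t _ => ?_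
    simp only [v, y, RCLike.inner_apply, RCLike.conj_ofReal]
    push_cast
    ring
  simp only [h2] at h1
  refine h1.trans ?_
  rw [EuclideanSpace.norm_sq_eq]
  have h3 : ∀ t : Fin N → Bool, ‖y t‖ ^ 2 ≤ (2 ^ N)⁻¹ * M ^ 2 := by
    intro t
    have h4 : ‖y t‖ ^ 2 = (2 ^ N)⁻¹ * ‖f t‖ ^ 2 := by
      simp only [y, norm_mul, RCLike.norm_ofReal, mul_pow, sq_abs]
      rw [← hr2]
      ring
    rw [h4]
    exact mul_le_mul_of_nonneg_left (pow_le_pow_left₀ (norm_nonneg _) (hf t) 2) (by positivity)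
  refine (Finset.sum_le_sum fun t _ => h3 t).trans (le_of_eq ?_)
  simp

theorem l1_level {x : ℕ → X} {c : ℝ} (hc : 0 < c)
    (h : ∀ b : ℕ →₀ 𝕜, c * n1 b ≤ ‖Finsupp.linearCombination 𝕜 x b‖) (β : ℕ → ℕ → 𝕜)
    (hβ : ∀ n (s : Finset ℕ), ∑ k ∈ s, ‖β n k‖ ^ 2 ≤ 1) (N : ℕ) :
    ∃ ψ : ℕ → StrongDual 𝕜 X, (∀ n, ∀ j < N, ψ j (x n) = β n j) ∧
      ∀ y (s : Finset ℕ), ∑ j ∈ s, ‖ψ j y‖ ^ 2 ≤ (4 / c * ‖y‖) ^ 2 := by
  have h1 : ∀ n, ∑ k : Fin N, ‖β n k‖ ^ 2 ≤ 1 := by
    intro n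
    rw [Fin.sum_univ_eq_sum_range (fun k => ‖β n k‖ ^ 2) N]
    exact hβ n _
  choose U hU hU' using fun n => l1_riesz' (fun k : Fin N => β n k) (h1 n)
  choose φ hφ hφ' using fun t : Fin N → Bool =>
    exists_ext_l1 hc h (v := fun n => U n t) (B := 4) (fun n => hU n t)
  let ψ : ℕ → StrongDual 𝕜 X := fun j => if hj : j < N then
    ((2 : 𝕜) ^ N)⁻¹ • ∑ t : Fin N → Bool, (l1sg (t ⟨j, hj⟩) : 𝕜) • φ t else 0
  have hψ : ∀ (j : Fin N) y, ψ j y =
      ((2 : 𝕜) ^ N)⁻¹ * ∑ t : Fin N → Bool, (l1sg (t j) : 𝕜) * φ t y := by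
    intro j y
    simp [ψ, j.2]
  refine ⟨ψ, fun n j hj => ?_, fun y s => ?_⟩
  · rw [hψ ⟨j, hj⟩]
    simp only [hφ']
    rw [hU' n ⟨j, hj⟩, ← mul_assoc, inv_mul_cancel₀ (pow_ne_zero _ two_ne_zero), one_mul]
  · have h2 : ∑ j ∈ Finset.range N, ‖ψ j y‖ ^ 2 ≤ (4 / c * ‖y‖) ^ 2 := by
      rw [← Fin.sum_univ_eq_sum_range (fun j => ‖ψ j y‖ ^ 2) N]
      simp only [hψ]
      exact l1_bessel (fun t => φ t y) fun t =>
        ((φ t).le_opNorm y).trans (mul_le_mul_of_nonneg_right (hφ t) (norm_nonneg _))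
    refine le_trans ?_ h2
    rw [← Finset.sum_filter_add_sum_filter_not s (fun j => j < N)]
    have h3 : ∑ j ∈ s.filter (fun j => ¬ j < N), ‖ψ j y‖ ^ 2 = 0 := by
      refine Finset.sum_eq_zero fun j hj => ?_
      simp [ψ, (Finset.mem_filter.mp hj).2]
    rw [h3, add_zero]
    refine Finset.sum_le_sum_of_subset_of_nonneg (fun j hj => ?_) fun _ _ _ => by positivity
    exact Finset.mem_range.mpr (Finset.mem_filter.mp hj).2

theorem l1_ulim (ψ : ℕ → StrongDual 𝕜 X) {r : ℝ} (h : ∀ N, ‖ψ N‖ ≤ r) :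
    ∃ g : StrongDual 𝕜 X, ∀ y, Tendsto (fun N => ψ N y) (hyperfilter ℕ) (𝓝 (g y)) := by
  obtain ⟨g, -, hg⟩ := (WeakDual.isCompact_closedBall (0 : StrongDual 𝕜 X) r).ultrafilter_le_nhds'
    ((hyperfilter ℕ).map fun N => StrongDual.toWeakDual (ψ N)) (by
      rw [Ultrafilter.mem_map]
      refine Filter.univ_mem' fun N => ?_
      simpa using h N)
  exact ⟨WeakDual.toStrongDual g, fun y => ((WeakDual.eval_continuous y).tendsto g).comp hg⟩

theorem l1_limit {x : ℕ → X} {c : ℝ} (hc : 0 < c)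
    (h : ∀ b : ℕ →₀ 𝕜, c * n1 b ≤ ‖Finsupp.linearCombination 𝕜 x b‖) (β : ℕ → ℕ → 𝕜)
    (hβ : ∀ n (s : Finset ℕ), ∑ k ∈ s, ‖β n k‖ ^ 2 ≤ 1) :
    ∃ ψ : ℕ → StrongDual 𝕜 X, (∀ n j, ψ j (x n) = β n j) ∧
      ∀ y (s : Finset ℕ), ∑ j ∈ s, ‖ψ j y‖ ^ 2 ≤ (4 / c * ‖y‖) ^ 2 := by
  choose ψ hψ hψ' using l1_level hc h β hβ
  have hn : ∀ j N, ‖ψ N j‖ ≤ 4 / c := by
    intro j N
    refine ContinuousLinearMap.opNorm_le_bound _ (by positivity) fun y => ?_
    have h1 := hψ' N y {j}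
    rw [Finset.sum_singleton] at h1
    exact (pow_le_pow_iff_left₀ (norm_nonneg _) (by positivity) two_ne_zero).mp h1
  choose g hg using fun j => l1_ulim (fun N => ψ N j) (hn j)
  refine ⟨g, fun n j => ?_, fun y s => ?_⟩
  · refine tendsto_nhds_unique (hg j (x n)) (tendsto_const_nhds.congr' ?_)
    refine Nat.hyperfilter_le_atTop ?_
    filter_upwards [eventually_gt_atTop j] with N hN
    exact (hψ N n j hN).symm
  · refine le_of_tendsto' (tendsto_finsetSum s fun j _ => ((hg j y).norm.pow 2)) fun N => ?_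
    exact hψ' N y s

theorem l1_sep : TopologicalSpace.SeparableSpace (lp (fun _ : ℕ => 𝕜) 2) := by
  rw [← TopologicalSpace.isSeparable_univ_iff]
  have h1 : TopologicalSpace.IsSeparable (Set.range fun n : ℕ =>
      (lp.single 2 n (1 : 𝕜) : lp (fun _ : ℕ => 𝕜) 2)) := (Set.countable_range _).isSeparable
  refine (h1.span (R := 𝕜)).closure.mono fun f _ => ?_
  refine mem_closure_of_tendsto (lp.hasSum_single (by simp) f) (Eventually.of_forall fun s => ?_)
  refine Submodule.sum_mem _ fun i _ => ?_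
  have h2 : (lp.single 2 i (f i) : lp (fun _ : ℕ => 𝕜) 2) = f i • lp.single 2 i (1 : 𝕜) := by
    rw [← lp.single_smul, smul_eq_mul, mul_one]
  rw [h2]
  exact Submodule.smul_mem _ _ (Submodule.subset_span ⟨i, rfl⟩)

theorem l1_seq : ∃ β : ℕ → lp (fun _ : ℕ => 𝕜) 2, (∀ n, ‖β n‖ ≤ 1) ∧
    (∀ j, ∃ n, β n = lp.single 2 j (1 : 𝕜)) ∧
    ∀ u : lp (fun _ : ℕ => 𝕜) 2, ‖u‖ ≤ 1 / 2 → ∃ n, ‖u - β n‖ ≤ 1 / 4 := by
  have := l1_sep (𝕜 := 𝕜)
  obtain ⟨u, hu⟩ := TopologicalSpace.exists_dense_seq (lp (fun _ : ℕ => 𝕜) 2)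
  refine ⟨fun n => if n % 2 = 0 then (if ‖u (n / 2)‖ ≤ 1 then u (n / 2) else 0)
    else lp.single 2 (n / 2) (1 : 𝕜), fun n => ?_, fun j => ⟨2 * j + 1, ?_⟩, fun w hw => ?_⟩
  · beta_reduce
    split_ifs with h1 h2
    · exact h2
    · simp
    · rw [lp.norm_single (by simp)]
      simp
  · have h1 : (2 * j + 1) % 2 ≠ 0 := by omega
    have h2 : (2 * j + 1) / 2 = j := by omega
    simp only [if_neg h1, h2]
  · obtain ⟨n, hn⟩ := hu.exists_dist_lt w (by norm_num : (0 : ℝ) < 1 / 4)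
    rw [dist_eq_norm] at hn
    have h1 : (2 * n) % 2 = 0 := by omega
    have h2 : (2 * n) / 2 = n := by omega
    have h3 : ‖u n‖ ≤ 1 := by
      have h4 : u n = w - (w - u n) := by abel
      have h5 := norm_sub_le w (w - u n)
      rw [← h4] at h5
      linarith
    refine ⟨2 * n, ?_⟩
    simp only [if_pos h1, h2, if_pos h3]
    exact hn.le

theorem sq_of_l1 [CompleteSpace X] {x : ℕ → X} {c : ℝ} (hc : 0 < c) (hx : ∀ n, ‖x n‖ ≤ 1)
    (h : ∀ b : ℕ →₀ 𝕜, c * n1 b ≤ ‖Finsupp.linearCombination 𝕜 x b‖) : SQ 𝕜 X := by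
  obtain ⟨β, hβ1, hβ2, hβ3⟩ := l1_seq (𝕜 := 𝕜)
  have hβ : ∀ n (s : Finset ℕ), ∑ k ∈ s, ‖β n k‖ ^ 2 ≤ 1 := by
    intro n s
    have h1 := lp.sum_rpow_le_norm_rpow (by simp) (β n) s
    simp only [ENNReal.toReal_ofNat, Real.rpow_ofNat] at h1
    exact h1.trans (pow_le_one₀ (norm_nonneg _) (hβ1 n))
  obtain ⟨ψ, hψ, hψ'⟩ := l1_limit hc h (fun n k => β n k) hβ
  have hmem : ∀ y, Memℓp (fun j => ψ j y) 2 := by
    intro y
    refine memℓp_gen' (C := (4 / c * ‖y‖) ^ 2) fun s => ?_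
    simp only [ENNReal.toReal_ofNat, Real.rpow_ofNat]
    exact hψ' y s
  let T : X → lp (fun _ : ℕ => 𝕜) 2 := fun y => ⟨fun j => ψ j y, hmem y⟩
  have hT : ∀ y j, T y j = ψ j y := fun _ _ => rfl
  have hTstep : ∀ y (a : 𝕜) n, T (y - a • x n) = T y - a • β n := by
    intro y a n
    ext j
    rw [lp.coeFn_sub, lp.coeFn_smul]
    simp [hT, hψ]
  let E : Submodule 𝕜 X := (Submodule.span 𝕜 (Set.range x)).topologicalClosure
  have hEc : IsClosed (E : Set X) := Submodule.isClosed_topologicalClosure _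
  have hxE : ∀ n, x n ∈ E := fun n =>
    Submodule.le_topologicalClosure _ (Submodule.subset_span ⟨n, rfl⟩)
  have key := iter_approx (φ := ψ) hEc (Y := Set.univ) (p := fun y => ‖T y‖) (C := 2)
    (fun y _ k => by
      rw [← hT]
      exact lp.norm_apply_le_norm (by simp) (T y) k)
    (fun y _ => by
      by_cases h0 : T y = 0
      · exact ⟨0, E.zero_mem, Set.mem_univ _, by simp, by simp [h0]⟩
      have hp : 0 < ‖T y‖ := norm_pos_iff.mpr h0
      set a : 𝕜 := ((2 * ‖T y‖ : ℝ) : 𝕜) with ha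
      have han : ‖a‖ = 2 * ‖T y‖ := by
        rw [ha, RCLike.norm_ofReal, abs_of_pos (by positivity)]
      have ha0 : a ≠ 0 := by
        rw [← norm_pos_iff, han]
        positivity
      obtain ⟨n, hn⟩ := hβ3 (a⁻¹ • T y) (by
        rw [norm_smul, norm_inv, han]
        apply le_of_eq
        field_simp)
      refine ⟨a • x n, E.smul_mem _ (hxE n), Set.mem_univ _, ?_, ?_⟩
      · rw [norm_smul, han]
        exact mul_le_of_le_one_right (by positivity) (hx n)
      · have h1 : T y - a • β n = a • (a⁻¹ • T y - β n) := by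
          rw [smul_sub, smul_inv_smul₀ ha0]
        rw [hTstep, h1, norm_smul, han]
        nlinarith)
  refine sq_of_dense (φ := ψ) ?_ (E := E) ?_ fun y ε hε => ?_
  · choose m hm using hβ2
    refine LinearIndependent.of_pairwise_dual_eq_zero_one ψ
      (fun j => (ContinuousLinearMap.apply 𝕜 𝕜 (x (m j))).toLinearMap) (fun i j hij => ?_)
      fun i => ?_
    · have : ψ j (x (m i)) = 0 := by
        rw [hψ, hm, lp.single_apply_ne _ _ _ hij.symm]
      simpa using this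
    · have : ψ i (x (m i)) = 1 := by
        rw [hψ, hm, lp.single_apply_self]
      simpa using this
  · exact ((Set.countable_range x).isSeparable.span (R := 𝕜)).closure
  · obtain ⟨e, he, he'⟩ := key y (Set.mem_univ _)
    exact ⟨e, he, y - e, he', by simpa using hε.le⟩

end Vale.Agent.P129.Pos
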