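import Vale.Agent.P129.Pos.HJ
import Vale.Agent.P129.Pos.L1

/-!
P129, positive direction, file Uncond: an unconditional sequence of functionals gives a separable
quotient.

Plan for `Unc.multiplier`.  From `Unc` with `single j 1` get `e j` with `g k (e j) = δ k j`.  Let
`M = ⨅ ker (g j)`, `v = ∑ j ∈ I, (s j * g j x) • e j`.  It suffices to show that the norm of `v` in
`X ⧸ M` is `≤ 12 σ ρ` (then `Submodule.Quotient.norm_mk_lt`).  Take `φ` of norm `≤ 1` on `X`, killing `M`,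
with `φ v` equal to this norm (`exists_dual_vector''` in the quotient).  For `B ⊆ I` put
`hB = ∑ j ∈ B, φ (e j) • g j`; if `z` is the vector of `Unc` for it, `z - ∑ j ∈ B, g j z • e j ∈ M`, so
`hB z = φ z` and `‖hB‖ ≤ 3`.  Hence `‖∑ j ∈ B, φ (e j) * g j x‖ ≤ 3 ρ` for all `B ⊆ I`, which gives
`∑ j ∈ I, ‖φ (e j) * g j x‖ ≤ 12 ρ` (`sum_norm_le_four`: split by the signs of `re` and `im`).

Plan for `sq_of_unc`.  Case (b): for all `x, ε` there is `n` with `‖h x‖ ≤ ε ‖h‖` for all `h` in the span of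
the `g j`, `j ≥ n`.  Then `sq_of_interp` with `φ = g` (`s = 1`).  Case (a): there are `x₀, ε` and
`c k : ℕ →₀ 𝕜` with pairwise disjoint supports, `h k = linearCombination g (c k)` of norm one and
`θ k = h k x₀` of norm `≥ ε`.  Apply `hagler_johnson`; the second case is `sq_of_l1`.  In the first case
let `φ i = linearCombination h (a i)`.  For a finite `B` and scalars `‖t i‖ ≤ η` the multiplier
`s j = t i * conj (a i k) / ‖a i k‖ / θ k` (`j ∈ supp (c k)`, `k ∈ supp (a i)`, `i ∈ B`) and `ρ = ‖x₀‖` give `z`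
with `‖z‖ ≤ 13 (η / ε) ‖x₀‖`, `φ i z = t i` on `B` and `0` off `B`; so `sq_of_interp` applies.
-/

namespace Vale.Agent.P129.Pos

variable {𝕜 X : Type} [RCLike 𝕜] [NormedAddCommGroup X] [NormedSpace 𝕜 X]

theorem sum_abs_le_two_unc {I : Finset ℕ} {v : ℕ → 𝕜} {r : ℝ} (f : 𝕜 →+ ℝ)
    (hf : ∀ x, |f x| ≤ ‖x‖) (h : ∀ B ⊆ I, ‖∑ j ∈ B, v j‖ ≤ r) :
    ∑ j ∈ I, |f (v j)| ≤ 2 * r := by
  rw [← Finset.sum_filter_add_sum_filter_not I fun j => 0 ≤ f (v j)]
  have h1 : ∑ j ∈ I with 0 ≤ f (v j), |f (v j)| = f (∑ j ∈ I with 0 ≤ f (v j), v j) := by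
    rw [map_sum]
    exact Finset.sum_congr rfl fun j hj => abs_of_nonneg (Finset.mem_filter.1 hj).2
  have h2 : ∑ j ∈ I with ¬ 0 ≤ f (v j), |f (v j)| = -f (∑ j ∈ I with ¬ 0 ≤ f (v j), v j) := by
    rw [map_sum, ← Finset.sum_neg_distrib]
    exact Finset.sum_congr rfl fun j hj => abs_of_neg (not_le.1 (Finset.mem_filter.1 hj).2)
  have h3 := (le_abs_self _).trans ((hf _).trans (h _ (Finset.filter_subset
    (fun j => 0 ≤ f (v j)) I)))
  have h4 := (neg_le_abs _).trans ((hf _).trans (h _ (Finset.filter_subset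
    (fun j => ¬ 0 ≤ f (v j)) I)))
  linarith

theorem sum_norm_le_four {I : Finset ℕ} {v : ℕ → 𝕜} {r : ℝ}
    (h : ∀ B ⊆ I, ‖∑ j ∈ B, v j‖ ≤ r) : ∑ j ∈ I, ‖v j‖ ≤ 4 * r := by
  have h1 := sum_abs_le_two_unc RCLike.re RCLike.abs_re_le_norm h
  have h2 := sum_abs_le_two_unc RCLike.im RCLike.abs_im_le_norm h
  have h3 : ∑ j ∈ I, ‖v j‖ ≤ ∑ j ∈ I, (|RCLike.re (v j)| + |RCLike.im (v j)|) := by
    refine Finset.sum_le_sum fun j _ => ?_
    refine (pow_le_pow_iff_left₀ (norm_nonneg _) (by positivity) two_ne_zero).1 ?_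
    rw [RCLike.norm_sq_eq_def]
    nlinarith [abs_mul_abs_self (RCLike.re (v j)), abs_mul_abs_self (RCLike.im (v j)),
      mul_nonneg (abs_nonneg (RCLike.re (v j))) (abs_nonneg (RCLike.im (v j)))]
  rw [Finset.sum_add_distrib] at h3
  linarith

theorem lc_apply_unc (g : ℕ → StrongDual 𝕜 X) (a : ℕ →₀ 𝕜) (z : X) :
    Finsupp.linearCombination 𝕜 g a z = ∑ j ∈ a.support, a j * g j z := by
  simp [Finsupp.linearCombination_apply, Finsupp.sum]

theorem Unc.exists_e {g : ℕ → StrongDual 𝕜 X} (hg : Unc g) (j : ℕ) :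
    ∃ e : X, ∀ k, g k e = if k = j then 1 else 0 := by
  obtain ⟨z, -, h2, h3⟩ := hg.2 (Finsupp.single j 1)
  rw [Finsupp.linearCombination_single, one_smul, hg.1] at h3
  have h4 : g j z ≠ 0 := fun h => by norm_num [h] at h3
  refine ⟨(g j z)⁻¹ • z, fun k => ?_⟩
  rw [map_smul, smul_eq_mul]
  split_ifs with hk
  · rw [hk, inv_mul_cancel₀ h4]
  · rw [h2 k (by simpa [Finsupp.single_apply] using hk), mul_zero]

theorem Unc.multiplier {g : ℕ → StrongDual 𝕜 X} (hg : Unc g) (I : Finset ℕ) (x : X) {s : ℕ → 𝕜}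
    {σ ρ : ℝ} (hσ : 0 < σ) (hρ : 0 < ρ) (hs : ∀ j ∈ I, ‖s j‖ ≤ σ)
    (hx : ∀ a : ℕ →₀ 𝕜, a.support ⊆ I →
      ‖Finsupp.linearCombination 𝕜 g a x‖ ≤ ρ * ‖Finsupp.linearCombination 𝕜 g a‖) :
    ∃ z : X, ‖z‖ ≤ 13 * σ * ρ ∧ ∀ j, g j z = if j ∈ I then s j * g j x else 0 := by
  choose e he using hg.exists_e
  have hge : ∀ (B : Finset ℕ) (y : ℕ → 𝕜) k,
      g k (∑ j ∈ B, y j • e j) = if k ∈ B then y k else 0 := fun B y k => by
    simp [map_sum, he]
  let M : Submodule 𝕜 X := ⨅ j, LinearMap.ker (g j : X →ₗ[𝕜] 𝕜)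
  have hM : ∀ y y' : X, M.mkQ y = M.mkQ y' ↔ ∀ j, g j y = g j y' := fun y y' => by
    simp [M, Submodule.Quotient.eq, Submodule.mem_iInf, sub_eq_zero]
  obtain ⟨ψ, hψ1, hψ2⟩ := exists_dual_vector'' 𝕜 (M.mkQ (∑ j ∈ I, (s j * g j x) • e j))
  have hsum : ∀ (B : Finset ℕ) (y : ℕ → 𝕜),
      ψ (M.mkQ (∑ j ∈ B, y j • e j)) = ∑ j ∈ B, y j * ψ (M.mkQ (e j)) := fun B y => by
    simp only [map_sum, map_smul, smul_eq_mul]
  have hB : ∀ B ⊆ I, ‖∑ j ∈ B, ψ (M.mkQ (e j)) * g j x‖ ≤ 3 * ρ := by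
    intro B hBI
    let a : ℕ →₀ 𝕜 := Finsupp.onFinset B (fun j => if j ∈ B then ψ (M.mkQ (e j)) else 0)
      fun j hj => by by_contra h; simp [h] at hj
    have ha : a.support ⊆ B := Finsupp.support_onFinset_subset
    have hlc : ∀ y, Finsupp.linearCombination 𝕜 g a y = ∑ j ∈ B, ψ (M.mkQ (e j)) * g j y := by
      intro y
      rw [lc_apply_unc, Finset.sum_subset ha fun j _ hj => by
        rw [Finsupp.notMem_support_iff.1 hj, zero_mul]]
      exact Finset.sum_congr rfl fun j hj => by simp [a, hj]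
    obtain ⟨z, hz1, hz2, hz3⟩ := hg.2 a
    have h1 : M.mkQ z = M.mkQ (∑ j ∈ B, g j z • e j) := (hM _ _).2 fun j => by
      rw [hge]
      split_ifs with hj
      exacts [rfl, hz2 j fun h => hj (ha h)]
    have h2 : Finsupp.linearCombination 𝕜 g a z = ψ (M.mkQ z) := by
      rw [hlc, h1, hsum]
      exact Finset.sum_congr rfl fun j _ => mul_comm _ _
    have h3 : ‖ψ (M.mkQ z)‖ ≤ 1 := (ψ.le_opNorm _).trans
      (mul_le_one₀ hψ1 (norm_nonneg _) ((Submodule.Quotient.norm_mk_le M z).trans hz1))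
    rw [← hlc]
    refine (hx a (ha.trans hBI)).trans ?_
    rw [h2] at hz3
    nlinarith
  have h4 := sum_norm_le_four hB
  have h5 : ‖M.mkQ (∑ j ∈ I, (s j * g j x) • e j)‖ ≤ 12 * σ * ρ := by
    rw [← abs_norm, ← RCLike.norm_ofReal (K := 𝕜), ← hψ2, hsum]
    refine (norm_sum_le _ _).trans ((Finset.sum_le_sum (g := fun j =>
      σ * ‖ψ (M.mkQ (e j)) * g j x‖) fun j hj => ?_).trans ?_)
    · rw [mul_assoc, norm_mul, mul_comm (g j x)]
      exact mul_le_mul_of_nonneg_right (hs j hj) (norm_nonneg _)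
    · rw [← Finset.mul_sum]
      nlinarith
  obtain ⟨z, hz1, hz2⟩ := Submodule.Quotient.norm_mk_lt
    (M.mkQ (∑ j ∈ I, (s j * g j x) • e j)) (mul_pos hσ hρ)
  exact ⟨z, by linarith, fun j => ((hM _ _).1 hz1 j).trans (hge I _ j)⟩

theorem exists_sel_unc {c : ℕ → ℕ →₀ 𝕜}
    (hc : ∀ i i', i ≠ i' → Disjoint (c i).support (c i').support) (w : ℕ → ℕ → 𝕜) :
    ∃ s : ℕ → 𝕜, ∀ k, ∀ j ∈ (c k).support, s j = w k j := by
  classical
  refine ⟨fun j => if h : ∃ k, j ∈ (c k).support then w h.choose j else 0, fun k j hj => ?_⟩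
  have h : ∃ k, j ∈ (c k).support := ⟨k, hj⟩
  have : h.choose = k := by
    by_contra hne
    exact Finset.disjoint_left.1 (hc _ _ hne) h.choose_spec hj
  simp only [dif_pos h, this]

theorem block_unc {c : ℕ → ℕ →₀ 𝕜}
    (hc : ∀ i i', i ≠ i' → Disjoint (c i).support (c i').support) {g : ℕ → StrongDual 𝕜 X}
    {K : Finset ℕ} {y : ℕ → 𝕜} {z : X}
    (hz : ∀ j, g j z = if j ∈ K.biUnion fun k => (c k).support then y j else 0) (k : ℕ) :
    Finsupp.linearCombination 𝕜 g (c k) z =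
      if k ∈ K then ∑ j ∈ (c k).support, c k j * y j else 0 := by
  rw [lc_apply_unc]
  split_ifs with hk
  · exact Finset.sum_congr rfl fun j hj => by
      rw [hz, if_pos (Finset.mem_biUnion.2 ⟨k, hk, hj⟩)]
  · refine Finset.sum_eq_zero fun j hj => ?_
    rw [hz, if_neg, mul_zero]
    intro h
    obtain ⟨k', hk', hj'⟩ := Finset.mem_biUnion.1 h
    exact Finset.disjoint_left.1 (hc k k' fun e => hk (e ▸ hk')) hj hj'

theorem exists_blocks_unc {p : (ℕ →₀ 𝕜) → Prop}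
    (h : ∀ n, ∃ a : ℕ →₀ 𝕜, (∀ j ∈ a.support, n ≤ j) ∧ p a) :
    ∃ c : ℕ → ℕ →₀ 𝕜, (∀ i i', i ≠ i' → Disjoint (c i).support (c i').support) ∧
      ∀ k, p (c k) := by
  choose f hf1 hf2 using h
  let N : ℕ → ℕ := fun k => Nat.rec 0 (fun _ n => max n ((f n).support.sup id + 1)) k
  have hN : ∀ k, N (k + 1) = max (N k) ((f (N k)).support.sup id + 1) := fun _ => rfl
  have hmono : Monotone N := monotone_nat_of_le_succ fun k => by rw [hN]; exact le_max_left _ _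
  have hlt : ∀ i i', i < i' → Disjoint (f (N i)).support (f (N i')).support := by
    intro i i' hi
    refine Finset.disjoint_left.2 fun j hj hj' => ?_
    have h1 : j ≤ (f (N i)).support.sup id := Finset.le_sup (f := id) hj
    have h2 := hf1 _ _ hj'
    have h3 : N (i + 1) ≤ N i' := hmono hi
    rw [hN] at h3
    omega
  exact ⟨fun k => f (N k), fun i i' hi => hi.lt_or_gt.elim (hlt i i') fun h => (hlt i' i h).symm,
    fun k => hf2 _⟩

theorem sq_of_unc [CompleteSpace X] {g : ℕ → StrongDual 𝕜 X} (hg : Unc g) : SQ 𝕜 X := by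
  by_cases hb : ∀ x : X, ∀ ε > 0, ∃ n, ∀ a : ℕ →₀ 𝕜, (∀ j ∈ a.support, n ≤ j) →
      ‖Finsupp.linearCombination 𝕜 g a x‖ ≤ ε * ‖Finsupp.linearCombination 𝕜 g a‖
  · refine sq_of_interp hg.exists_e fun x ε hε => ?_
    obtain ⟨n, hn⟩ := hb x (ε / 13) (by positivity)
    refine ⟨n, fun I hI => ?_⟩
    obtain ⟨z, h1, h2⟩ := hg.multiplier I x (s := fun _ => 1) one_pos
      (show 0 < ε / 13 by positivity) (by simp) fun a ha => hn a fun j hj => hI j (ha hj)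
    exact ⟨z, by linarith, by simpa using h2⟩
  push Not at hb
  obtain ⟨x₀, ε, hε, hb⟩ := hb
  obtain ⟨c, hc, hc'⟩ := exists_blocks_unc (p := fun a : ℕ →₀ 𝕜 =>
      ‖Finsupp.linearCombination 𝕜 g a‖ ≤ 1 ∧ ε < ‖Finsupp.linearCombination 𝕜 g a x₀‖) fun n => by
    obtain ⟨a, h1, h2⟩ := hb n
    have h3 : 0 < ‖Finsupp.linearCombination 𝕜 g a‖ := norm_pos_iff.2 fun h => by simp [h] at h2
    refine ⟨((‖Finsupp.linearCombination 𝕜 g a‖⁻¹ : ℝ) : 𝕜) • a,
      fun j hj => h1 j (Finsupp.support_smul hj), ?_, ?_⟩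
    · rw [map_smul, norm_smul, RCLike.norm_ofReal, abs_of_pos (inv_pos.2 h3),
        inv_mul_cancel₀ h3.ne']
    · rw [map_smul, smul_apply, norm_smul, RCLike.norm_ofReal,
        abs_of_pos (inv_pos.2 h3), lt_inv_mul_iff₀ h3, mul_comm]
      exact h2
  set h : ℕ → StrongDual 𝕜 X := fun k => Finsupp.linearCombination 𝕜 g (c k) with hh
  have hρ : 0 < ‖x₀‖ + 1 := by positivity
  have st1 : ∀ (K : Finset ℕ) (u : ℕ → 𝕜) (η : ℝ), 0 < η → (∀ k ∈ K, ‖u k‖ ≤ η) →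
      ∃ z : X, ‖z‖ ≤ 13 * (η / ε) * (‖x₀‖ + 1) ∧ ∀ k, h k z = if k ∈ K then u k else 0 := by
    intro K u η hη hu
    obtain ⟨s, hs⟩ := exists_sel_unc hc fun k _ => u k / h k x₀
    obtain ⟨z, h1, h2⟩ := hg.multiplier (K.biUnion fun k => (c k).support) x₀ (s := s)
      (div_pos hη hε) hρ (fun j hj => by
        obtain ⟨k, hk, hj⟩ := Finset.mem_biUnion.1 hj
        rw [hs k j hj, norm_div]
        exact div_le_div₀ hη.le (hu k hk) hε (hc' k).2.le) fun a _ =>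
      (ContinuousLinearMap.le_opNorm _ _).trans (by
        rw [mul_comm]; exact mul_le_mul_of_nonneg_right (by linarith) (norm_nonneg _))
    refine ⟨z, h1, fun k => (block_unc hc h2 k).trans (if_congr Iff.rfl ?_ rfl)⟩
    have h3 : h k x₀ ≠ 0 := norm_pos_iff.1 (hε.trans (hc' k).2)
    refine Eq.trans ?_ (div_mul_cancel₀ (u k) h3)
    refine Eq.trans ?_ (congrArg (u k / h k x₀ * ·) (lc_apply_unc g (c k) x₀)).symm
    rw [Finset.mul_sum]
    exact Finset.sum_congr rfl fun j hj => by rw [hs k j hj, mul_left_comm]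
  rcases hagler_johnson (h := h) fun k => (hc' k).1 with ⟨a, ha1, ha2, ha3⟩ | ⟨x, c', h1, h2, h3⟩
  swap
  · exact sq_of_l1 h1 h2 h3
  have st2 : ∀ (B : Finset ℕ) (t : ℕ → 𝕜) (η : ℝ), 0 < η → (∀ k ∈ B, ‖t k‖ ≤ η) →
      ∃ z : X, ‖z‖ ≤ 13 * (η / ε) * (‖x₀‖ + 1) ∧
        ∀ i, Finsupp.linearCombination 𝕜 h (a i) z = if i ∈ B then t i else 0 := by
    intro B t η hη ht
    obtain ⟨u, hu⟩ := exists_sel_unc ha2 fun i k => t i * ((‖a i k‖ : 𝕜) / a i k)
    obtain ⟨z, h1, h2⟩ := st1 (B.biUnion fun i => (a i).support) u η hη fun k hk => by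
      obtain ⟨i, hi, hk⟩ := Finset.mem_biUnion.1 hk
      rw [hu i k hk, norm_mul, norm_div, RCLike.norm_ofReal, abs_norm,
        div_self (norm_ne_zero_iff.2 (Finsupp.mem_support_iff.1 hk)), mul_one]
      exact ht i hi
    refine ⟨z, h1, fun i => (block_unc ha2 h2 i).trans (if_congr Iff.rfl ?_ rfl)⟩
    have h3 : ∑ k ∈ (a i).support, (‖a i k‖ : 𝕜) = 1 := by exact_mod_cast ha1 i
    rw [← mul_one (t i), ← h3, Finset.mul_sum]
    refine Finset.sum_congr rfl fun k hk => ?_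
    rw [hu i k hk, mul_left_comm, mul_div_cancel₀ _ (Finsupp.mem_support_iff.1 hk)]
  refine sq_of_interp (φ := fun i => Finsupp.linearCombination 𝕜 h (a i)) (fun i => ?_)
    fun x ε' hε' => ?_
  · obtain ⟨z, -, hz⟩ := st2 {i} (fun _ => 1) 1 one_pos (by simp)
    exact ⟨z, by simpa using hz⟩
  · have hη : 0 < ε' * ε / (13 * (‖x₀‖ + 1)) := by positivity
    obtain ⟨n, hn⟩ := Filter.eventually_atTop.1 ((ha3 x).norm.eventually
      (eventually_le_nhds (by simpa using hη)))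
    refine ⟨n, fun I hI => ?_⟩
    obtain ⟨z, h1, h2⟩ := st2 I _ _ hη fun k hk => hn k (hI k hk)
    refine ⟨z, h1.trans (le_of_eq ?_), h2⟩
    field_simp

end Vale.Agent.P129.Pos
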