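import Vale.Agent.P129.Pos.Free
import Vale.Agent.P129.Pos.Uncond

/-!
P129, positive direction: assembly.
-/

namespace Vale.Agent.P129.Pos

theorem sq_of_fineAx (h : FineAx) (𝕜 X : Type) [RCLike 𝕜] [NormedAddCommGroup X]
    [NormedSpace 𝕜 X] [CompleteSpace X] (hX : ¬ FiniteDimensional 𝕜 X) : SQ 𝕜 X := by
  by_contra hsq
  obtain ⟨g, hg⟩ := exists_unc h hX hsq
  exact hsq (sq_of_unc hg)

end Vale.Agent.P129.Pos
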