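import Vale.Agent.P129.Pos.Defs

/-!
P129, positive direction, file Quot: criteria for a separable quotient.

Plan for `sq_of_dense`.  `M = ⨅ k, ker (φ k)`.  The image of `E` is dense in `X ⧸ M`; the `φ k`
descend to a linearly independent family in the algebraic dual of `X ⧸ M`.

Plan for `iter_approx`.  `y 0 = y`, `y (n+1) = y n - e n`; `p (y n) ≤ p y / 2^n` (`p ≥ 0` on `Y`), so
`∑ e n` converges to `e ∈ E` and `φ k (y - e) = lim φ k (y n) = 0`.

Plan for `sq_of_interp`.  `E` = span of the `e i`.  Given `x` and `ε`, choose `n 0 < n 1 < ..` for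
`ε / 2^(k+1)` and `z k` for the intervals `[n k, n (k+1))`; `z = ∑' z k` has norm `≤ ε` and
`x - ∑ i < n 0, φ i x • e i - z` is killed by all `φ k`.
-/

namespace Vale.Agent.P129.Pos

variable {𝕜 X : Type} [RCLike 𝕜] [NormedAddCommGroup X] [NormedSpace 𝕜 X]

theorem sq_of_dense {φ : ℕ → StrongDual 𝕜 X} (hli : LinearIndependent 𝕜 φ) {E : Set X}
    (hE : TopologicalSpace.IsSeparable E)
    (h : ∀ x : X, ∀ ε > 0, ∃ y ∈ E, ∃ m : X, (∀ k, φ k m = 0) ∧ ‖x - y - m‖ ≤ ε) : SQ 𝕜 X := by
  let M : Submodule 𝕜 X := ⨅ k, LinearMap.ker (φ k : X →ₗ[𝕜] 𝕜)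
  have hM : ∀ m, m ∈ M ↔ ∀ k, φ k m = 0 := fun m => by simp [M]
  refine ⟨M, ?_, ?_, fun hfin => ?_⟩
  · rw [Submodule.coe_iInf]
    exact isClosed_iInter fun k => (φ k).isClosed_ker
  · refine TopologicalSpace.isSeparable_univ_iff.1
      ((hE.image (f := M.mkQ) continuous_quot_mk).closure.mono fun q _ => ?_)
    obtain ⟨x, rfl⟩ := M.mkQ_surjective q
    refine Metric.mem_closure_iff.2 fun ε hε => ?_
    obtain ⟨y, hy, m, hm, hxy⟩ := h x _ (half_pos hε)
    refine ⟨_, ⟨y, hy, rfl⟩, ?_⟩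
    have h1 : M.mkQ (x - y - m) = M.mkQ x - M.mkQ y := by
      rw [map_sub, map_sub, M.mkQ_apply m, (Submodule.Quotient.mk_eq_zero M).2 ((hM m).2 hm),
        sub_zero]
    rw [dist_eq_norm, ← h1]
    exact ((Submodule.Quotient.norm_mk_le M _).trans hxy).trans_lt (half_lt_self hε)
  · have h1 := hli.map' (ContinuousLinearMap.coeLM 𝕜)
      (LinearMap.ker_eq_bot.2 ContinuousLinearMap.coe_injective)
    refine Module.Finite.not_linearIndependent_of_infinite
      (fun k => (M.liftQ (φ k : X →ₗ[𝕜] 𝕜) (iInf_le _ k) : Module.Dual 𝕜 (X ⧸ M)))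
      (LinearIndependent.of_comp M.mkQ.dualMap ?_)
    exact h1

theorem iter_approx [CompleteSpace X] {φ : ℕ → StrongDual 𝕜 X} {E : Submodule 𝕜 X}
    (hE : IsClosed (E : Set X)) {Y : Set X} {p : X → ℝ} {C : ℝ}
    (hp : ∀ y ∈ Y, ∀ k, ‖φ k y‖ ≤ p y)
    (hstep : ∀ y ∈ Y, ∃ e ∈ E, y - e ∈ Y ∧ ‖e‖ ≤ C * p y ∧ p (y - e) ≤ p y / 2) :
    ∀ y ∈ Y, ∃ e ∈ E, ∀ k, φ k (y - e) = 0 := by
  choose! e heE heY hen hep using hstep
  intro y hy
  let u : ℕ → X := fun n => (fun x => x - e x)^[n] y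
  have hu : ∀ n, u (n + 1) = u n - e (u n) := fun n => Function.iterate_succ_apply' _ _ _
  have h1 : ∀ n, u n ∈ Y ∧ p (u n) ≤ p y * (1 / 2) ^ n := fun n => by
    induction n with
    | zero => exact ⟨hy, by simp [u]⟩
    | succ n ih =>
      rw [hu, pow_succ]
      exact ⟨heY _ ih.1, by linarith [hep _ ih.1, ih.2]⟩
  have h2 : Summable fun n => e (u n) := by
    refine .of_norm_bounded ((summable_geometric_two.mul_left (p y)).mul_left |C|) fun n => ?_
    have h0 : 0 ≤ p (u n) := (norm_nonneg _).trans (hp _ (h1 n).1 0)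
    exact (hen _ (h1 n).1).trans (mul_le_mul (le_abs_self C) (h1 n).2 h0 (abs_nonneg C))
  have h3 : ∀ n, u n = y - ∑ i ∈ Finset.range n, e (u i) := fun n => by
    induction n with
    | zero => simp [u]
    | succ n ih => rw [hu, Finset.sum_range_succ, ← sub_sub, ← ih]
  have h4 := h2.hasSum.tendsto_sum_nat
  refine ⟨_, hE.mem_of_tendsto h4 (.of_forall fun n => sum_mem fun i _ => heE _ (h1 i).1),
    fun k => ?_⟩
  refine tendsto_nhds_unique (((φ k).continuous.tendsto _).comp (h4.const_sub y)) ?_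
  refine squeeze_zero_norm (fun n => ?_) (by
    simpa using (tendsto_pow_atTop_nhds_zero_of_lt_one (r := (1 / 2 : ℝ)) (by norm_num)
      (by norm_num)).const_mul (p y))
  rw [Function.comp_apply, ← h3, ← inv_pow, ← one_div]
  exact (hp _ (h1 n).1 k).trans (h1 n).2

theorem sq_of_interp [CompleteSpace X] {φ : ℕ → StrongDual 𝕜 X}
    (h1 : ∀ i, ∃ e : X, ∀ k, φ k e = if k = i then 1 else 0)
    (h2 : ∀ x : X, ∀ ε > 0, ∃ n, ∀ I : Finset ℕ, (∀ i ∈ I, n ≤ i) →
      ∃ z : X, ‖z‖ ≤ ε ∧ ∀ k, φ k z = if k ∈ I then φ k x else 0) : SQ 𝕜 X := by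
  choose e he using h1
  refine sq_of_dense (φ := φ) (E := Submodule.span 𝕜 (Set.range e)) ?_
    (Set.countable_range e).isSeparable.span fun x ε hε => ?_
  · refine linearIndependent_iff'.2 fun s g hg i hi => ?_
    have := congrArg (fun f : StrongDual 𝕜 X => f (e i)) hg
    simpa [he, hi] using this
  choose n hn using fun k : ℕ => h2 x (ε / 2 / 2 ^ k) (by positivity)
  let N : ℕ → ℕ := fun k => (Finset.range (k + 1)).sup n + k
  have hN : Monotone N := fun a b hab =>
    add_le_add (Finset.sup_mono (Finset.range_mono (Nat.succ_le_succ hab))) hab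
  choose z hz hφ using fun k => hn k (Finset.Ico (N k) (N (k + 1))) fun i hi =>
    ((Finset.le_sup (Finset.self_mem_range_succ k)).trans (Nat.le_add_right _ _)).trans
      (Finset.mem_Ico.1 hi).1
  have h3 : Summable z := .of_norm_bounded (summable_geometric_two' ε) hz
  have h4 : ∀ i K, φ i (∑ k ∈ Finset.range K, z k)
      = if i ∈ Finset.Ico (N 0) (N K) then φ i x else 0 := fun i K => by
    induction K with
    | zero => simp
    | succ K ih =>
      have := hN (Nat.zero_le K)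
      have := hN (Nat.le_add_right K 1)
      rw [Finset.sum_range_succ, map_add, ih, hφ]
      simp only [Finset.mem_Ico]
      split_ifs <;> first | omega | simp
  have h5 : ∀ i, φ i (∑' k, z k) = if N 0 ≤ i then φ i x else 0 := fun i => by
    refine tendsto_nhds_unique (((φ i).continuous.tendsto _).comp h3.hasSum.tendsto_sum_nat)
      (tendsto_const_nhds.congr' ?_)
    filter_upwards [Filter.eventually_gt_atTop i] with K hK
    have : i < N K := hK.trans_le (Nat.le_add_left _ _)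
    simp only [Function.comp_apply, h4, Finset.mem_Ico, this, and_true]
  refine ⟨∑ i ∈ Finset.range (N 0), φ i x • e i,
    sum_mem fun i _ => Submodule.smul_mem _ _ (Submodule.subset_span ⟨i, rfl⟩),
    x - ∑ i ∈ Finset.range (N 0), φ i x • e i - ∑' k, z k, fun k => ?_, ?_⟩
  · simp only [map_sub, map_sum, map_smul, he, h5, smul_eq_mul, mul_ite, mul_one, mul_zero,
      Finset.sum_ite_eq, Finset.mem_range]
    split_ifs <;> first | omega | simp
  · rw [sub_sub_cancel]
    exact tsum_of_norm_bounded (hasSum_geometric_two' ε) hz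

end Vale.Agent.P129.Pos
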