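import Vale.Agent.P129.Pos.Defs

/-!
P129, positive direction, file Summing: the identity of an infinite-dimensional normed space is
not 2-summing, and random variables with a prescribed finite law.

Plan for `exists_weights`.  Suppose not; then (normalizing `p i = ‖w i‖² / ∑ ‖w j‖²`, dropping zero
vectors) for every finite family `ε * ∑ ‖w i‖² ≤ sup_φ ∑ φ (w i)²`, the sup over the dual unit ball `B`.
In the space `L` of bounded functions on `B` (`lp`, `→ᵇ` with the discrete topology, or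
`C(WeakDual.polar .., ℝ)`) the convex cone of the functions `φ ↦ ∑ φ (w i)² - ε ∑ ‖w i‖²` misses the
open convex set `{u | sup u < 0}`.  Separation (`geometric_hahn_banach_open`) gives a positive
functional `m` with `m 1 = 1` and `ε ‖w‖² ≤ m (φ ↦ φ w ²) ≤ ‖w‖²`.  So `⟪w, w'⟫ = m (φ w * φ w')` is an
inner product; choose `e 0, .., e (N-1)` orthonormal for it (each new vector in the kernel of finitely
many functionals).  Then `‖e i‖ ≥ 1`, and for `φ ∈ B`, `s = ∑ φ (e i)² = φ (∑ φ (e i) • e i)`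
gives `s² ≤ ‖∑ φ (e i) • e i‖² ≤ s / ε`, so `s ≤ 1 / ε` and `ε N ≤ 1 / ε`, false for large `N`.
(One may also use a sublinear functional and `exists_extension_of_le_sublinear`.)

Plan for `exists_partition`.  `F t = ν (Iic t)` is continuous (no atoms), tends to `0` and `1`; by the
intermediate value theorem choose thresholds; induction on `N`, or prove first: every set `A` and
`r ≤ ν A` admit `B ⊆ A` with `ν B = r` (take `B = A ∩ Iic t`, or `∅`, `A`).
-/

namespace Vale.Agent.P129.Pos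

open MeasureTheory
open scoped BoundedContinuousFunction

theorem summ_orth {W : Type} [AddCommGroup W] [Module ℝ W] (hW : ¬ FiniteDimensional ℝ W)
    (β : W →ₗ[ℝ] W →ₗ[ℝ] ℝ) (hs : ∀ x y, β x y = β y x) (hp : ∀ x, x ≠ 0 → 0 < β x x) (N : ℕ) :
    ∃ e : Fin N → W, ∀ i j, β (e i) (e j) = if i = j then 1 else 0 := by
  induction N with
  | zero => exact ⟨Fin.elim0, fun i => i.elim0⟩
  | succ N ih =>
    obtain ⟨e, he⟩ := ih
    obtain ⟨w, hw, h0⟩ : ∃ w, (LinearMap.pi fun i => β (e i)) w = 0 ∧ w ≠ 0 := by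
      by_contra h
      push Not at h
      exact hW (Module.Finite.of_injective _ ((injective_iff_map_eq_zero _).2 h))
    have h1 : ∀ i, β (e i) w = 0 := fun i => congrFun hw i
    have h2 := Real.sqrt_pos.2 (hp w h0)
    refine ⟨Fin.cons ((√(β w w))⁻¹ • w) e, fun i j => ?_⟩
    induction i using Fin.cases <;> induction j using Fin.cases
    · simp only [Fin.cons_zero, map_smul, LinearMap.smul_apply, smul_eq_mul, if_true]
      field_simp
      rw [Real.sq_sqrt (hp w h0).le]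
    · simp [hs w, h1, (Fin.succ_ne_zero _).symm]
    · simp [h1]
    · simp [he]

theorem summ_bound {W : Type} [NormedAddCommGroup W] [NormedSpace ℝ W]
    {β : W →ₗ[ℝ] W →ₗ[ℝ] ℝ} {c : ℝ} (hc : 0 < c) (hβ : ∀ x, c * ‖x‖ ^ 2 ≤ β x x) {N : ℕ}
    {e : Fin N → W} (he : ∀ i j, β (e i) (e j) = if i = j then 1 else 0)
    (φ : StrongDual ℝ W) (hφ : ‖φ‖ ≤ 1) : ∑ i, φ (e i) * φ (e i) ≤ 1 / c := by
  have h1 := hβ (∑ i, φ (e i) • e i)
  have h3 : ‖φ (∑ i, φ (e i) • e i)‖ ≤ ‖∑ i, φ (e i) • e i‖ :=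
    (φ.le_of_opNorm_le hφ _).trans_eq (one_mul _)
  simp only [map_sum, map_smul, LinearMap.sum_apply, LinearMap.smul_apply, he, smul_eq_mul,
    mul_ite, mul_one, mul_zero, Finset.sum_ite_eq', Finset.mem_univ, if_true] at h1 h3
  have h4 : 0 ≤ ∑ i, φ (e i) * φ (e i) := Finset.sum_nonneg fun i _ => mul_self_nonneg _
  rw [Real.norm_of_nonneg h4] at h3
  rw [le_div_iff₀ hc]
  rcases h4.eq_or_lt with h5 | h5
  · rw [← h5, zero_mul]; exact zero_le_one
  · refine le_of_mul_le_mul_left ?_ h5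
    nlinarith [mul_le_mul_of_nonneg_left (mul_self_le_mul_self h4 h3) hc.le]

theorem exists_weights (W : Type) [NormedAddCommGroup W] [NormedSpace ℝ W]
    (hW : ¬ FiniteDimensional ℝ W) {ε : ℝ} (hε : 0 < ε) :
    ∃ (N : ℕ) (w : Fin N → W) (p : Fin N → ℝ), (∀ i, ‖w i‖ = 1) ∧ (∀ i, 0 ≤ p i) ∧
      ∑ i, p i = 1 ∧ ∀ φ : StrongDual ℝ W, ‖φ‖ ≤ 1 → ∑ i, p i * φ (w i) ^ 2 ≤ ε := by
  by_contra H
  let ev : W →ₗ[ℝ] (Metric.closedBall (0 : StrongDual ℝ W) 1 →ᵇ ℝ) :=
    { toFun w := .ofNormedAddCommGroup (fun φ => φ.1 w) (by fun_prop) ‖w‖ fun φ =>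
        (φ.1.le_of_opNorm_le (mem_closedBall_zero_iff.1 φ.2) w).trans_eq (one_mul _)
      map_add' x y := by ext; simp
      map_smul' r x := by ext; simp }
  have hev : ∀ w φ, ev w φ = φ.1 w := fun _ _ => rfl
  obtain ⟨f, c, h1, h2⟩ := geometric_hahn_banach_open (convex_ball 0 ε) Metric.isOpen_ball
    (convex_convexHull ℝ ((fun w => ev w * ev w) '' {w | ‖w‖ = 1})) <| by
      refine Set.disjoint_left.2 fun u hu hu' => H ?_
      obtain ⟨ι, _, p, z, hp, hs, hz, rfl⟩ := mem_convexHull_iff_exists_fintype.1 hu'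
      choose w hw hwz using hz
      let e := (Fintype.equivFin ι).symm
      refine ⟨_, w ∘ e, p ∘ e, fun i => hw _, fun i => hp _, (e.sum_comp p).trans hs,
        fun φ hφ => (e.sum_comp fun i => p i * φ (w i) ^ 2).trans_le ?_⟩
      refine le_trans ((le_of_eq ?_).trans (le_abs_self _)) (((∑ i, p i • z i).norm_coe_le_norm
        ⟨φ, mem_closedBall_zero_iff.2 hφ⟩).trans (mem_ball_zero_iff.1 hu).le)
      simp [← hwz, hev, sq]
  have hc : 0 < c := by simpa using h1 0 (Metric.mem_ball_self hε)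
  let β : W →ₗ[ℝ] W →ₗ[ℝ] ℝ := ((LinearMap.mul ℝ _).compl₁₂ ev ev).compr₂ f.toLinearMap
  have hβ : ∀ x y, β x y = f (ev x * ev y) := fun _ _ => rfl
  have h3 : ∀ x, c * ‖x‖ ^ 2 ≤ β x x := fun x => by
    rcases eq_or_ne x 0 with rfl | hx
    · simp
    have h4 := norm_pos_iff.2 hx
    have h5 : c ≤ β (‖x‖⁻¹ • x) (‖x‖⁻¹ • x) :=
      h2 _ (subset_convexHull ℝ _ ⟨‖x‖⁻¹ • x, norm_smul_inv_norm hx, rfl⟩)
    simp only [map_smul, LinearMap.smul_apply, smul_eq_mul] at h5
    rwa [← le_div_iff₀ (by positivity), sq, div_eq_inv_mul, mul_inv, mul_assoc]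
  obtain ⟨N, hN⟩ := exists_nat_ge (2 / ε)
  obtain ⟨e, he⟩ := summ_orth hW β (fun x y => by rw [hβ, hβ, mul_comm])
    (fun x hx => lt_of_lt_of_le (by have := norm_pos_iff.2 hx; positivity) (h3 x)) N
  have h4 : ‖∑ i, ev (e i) * ev (e i)‖ ≤ 1 / c :=
    (BoundedContinuousFunction.norm_le (by positivity)).2 fun φ => by
      simp only [BoundedContinuousFunction.sum_apply, BoundedContinuousFunction.mul_apply, hev]
      rw [Real.norm_of_nonneg (Finset.sum_nonneg fun i _ => mul_self_nonneg _)]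
      exact summ_bound hc h3 he φ.1 (mem_closedBall_zero_iff.1 φ.2)
  have h5 := h1 ((c * ε / 2) • ∑ i, ev (e i) * ev (e i)) <| by
    rw [mem_ball_zero_iff, norm_smul, Real.norm_of_nonneg (by positivity)]
    refine (mul_le_mul_of_nonneg_left h4 (by positivity)).trans_lt ?_
    field_simp
    norm_num
  simp only [map_smul, map_sum, ← hβ, he, if_true, smul_eq_mul, Finset.sum_const, Finset.card_univ,
    Fintype.card_fin, nsmul_eq_mul, mul_one] at h5
  rw [div_le_iff₀ hε] at hN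
  nlinarith

theorem summ_sub (ν : @Measure ℝ ⊤) (hfin : ∀ A, ν A ≠ ⊤) (h0 : ∀ r : ℝ, ν {r} = 0) (A : Set ℝ)
    {r : ENNReal} (hr : r ≤ ν A) : ∃ B ⊆ A, ν B = r := by
  classical
  let := (⊤ : MeasurableSpace ℝ)
  let s : ℚ → Set ℝ := fun q => A ∩ Set.Iic (q : ℝ)
  have hs : ∀ a b, s a ⊆ s b ∨ s b ⊆ s a := fun a b => (le_total (a : ℝ) b).imp
    (fun h => Set.inter_subset_inter_right _ (Set.Iic_subset_Iic.2 h))
    (fun h => Set.inter_subset_inter_right _ (Set.Iic_subset_Iic.2 h))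
  let u : ℚ → Set ℝ := fun q => if ν (s q) ≤ r then s q else ∅
  let v : ℚ → Set ℝ := fun q => if ν (s q) ≤ r then A else s q
  have hu : ∀ a b, u a ⊆ u b ∨ u b ⊆ u a := fun a b => by
    simp only [u]; split_ifs <;> simp [hs]
  have hv : ∀ a b, v a ⊆ v b ∨ v b ⊆ v a := fun a b => by
    simp only [v]; split_ifs
    exacts [.inl le_rfl, .inr Set.inter_subset_left, .inl Set.inter_subset_left, hs a b]
  refine ⟨⋃ q, u q, Set.iUnion_subset fun q => ?_, le_antisymm ?_ ?_⟩
  · simp only [u]; split_ifs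
    exacts [Set.inter_subset_left, Set.empty_subset _]
  · rw [Directed.measure_iUnion fun a b =>
      (hu a b).elim (fun h => ⟨b, h, le_rfl⟩) fun h => ⟨a, le_rfl, h⟩]
    refine iSup_le fun q => ?_
    simp only [u]; split_ifs with h
    exacts [h, by simp]
  · have h1 : r ≤ ν (⋂ q, v q) := by
      rw [Directed.measure_iInter (fun _ => MeasurableSpace.measurableSet_top.nullMeasurableSet)
        (fun a b => (hv a b).elim (fun h => ⟨a, le_rfl, h⟩) fun h => ⟨b, h, le_rfl⟩) ⟨0, hfin _⟩]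
      refine le_iInf fun q => ?_
      simp only [v]; split_ifs with h
      exacts [hr, (not_le.1 h).le]
    have h2 : ∀ x ∈ (⋂ q, v q) \ ⋃ q, u q, ∀ y ∈ (⋂ q, v q) \ ⋃ q, u q, ¬ x < y := by
      intro x hx y hy hxy
      obtain ⟨q, hq, hq'⟩ := exists_rat_btwn hxy
      have hxq := Set.mem_iInter.1 hx.1 q
      have hyq := Set.mem_iInter.1 hy.1 q
      by_cases h : ν (s q) ≤ r
      · simp only [v, if_pos h] at hxq
        exact hx.2 (Set.mem_iUnion.2 ⟨q, by simp only [u, if_pos h]; exact ⟨hxq, hq.le⟩⟩)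
      · simp only [v, if_neg h] at hyq
        exact hq'.not_ge hyq.2
    have h3 : ((⋂ q, v q) \ ⋃ q, u q).Subsingleton := fun x hx y hy =>
      le_antisymm (not_lt.1 (h2 y hy x hx)) (not_lt.1 (h2 x hx y hy))
    have h4 : ν ((⋂ q, v q) \ ⋃ q, u q) = 0 :=
      h3.induction_on (p := fun S => ν S = 0) measure_empty h0
    refine h1.trans ((measure_le_inter_add_sdiff ν _ (⋃ q, u q)).trans ?_)
    rw [h4, add_zero]
    exact measure_mono Set.inter_subset_right

theorem summ_part (ν : @Measure ℝ ⊤) (hfin : ∀ A, ν A ≠ ⊤) (h0 : ∀ r : ℝ, ν {r} = 0) (N : ℕ) :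
    ∀ (p : Fin (N + 1) → ENNReal) (A : Set ℝ), ν A = ∑ i, p i →
      ∃ r : ℝ → Fin (N + 1), ∀ i, ν (A ∩ r ⁻¹' {i}) = p i := by
  classical
  let := (⊤ : MeasurableSpace ℝ)
  induction N with
  | zero =>
    refine fun p A h => ⟨fun _ => 0, fun i => ?_⟩
    obtain rfl : i = 0 := Subsingleton.elim (α := Fin 1) _ _
    simpa using h
  | succ N ih =>
    intro p A h
    rw [Fin.sum_univ_succ] at h
    obtain ⟨B, hB, h1⟩ := summ_sub ν hfin h0 A (r := p 0) (h ▸ le_self_add)
    obtain ⟨r, hr⟩ := ih (fun i => p i.succ) (A \ B) <| by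
      rw [measure_sdiff hB MeasurableSpace.measurableSet_top.nullMeasurableSet (hfin _), h, h1,
        ENNReal.add_sub_cancel_left (h1 ▸ hfin _)]
    refine ⟨fun x => if x ∈ B then 0 else (r x).succ, fun i => ?_⟩
    induction i using Fin.cases with
    | zero =>
      rw [← h1]
      congr 1
      ext x
      by_cases hx : x ∈ B <;> simp [hx, @hB x]
    | succ i =>
      rw [← hr]
      congr 1
      ext x
      by_cases hx : x ∈ B <;> simp [hx, (Fin.succ_ne_zero _).symm]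

theorem exists_partition (ν : @Measure ℝ ⊤) (h1 : ν Set.univ = 1) (h0 : ∀ r : ℝ, ν {r} = 0)
    {N : ℕ} (p : Fin N → ℝ) (hp : ∀ i, 0 ≤ p i) (hs : ∑ i, p i = 1) :
    ∃ r : ℝ → Fin N, ∀ i, ν (r ⁻¹' {i}) = ENNReal.ofReal (p i) := by
  let := (⊤ : MeasurableSpace ℝ)
  rcases N with _ | N
  · simp at hs
  obtain ⟨r, hr⟩ := summ_part ν (fun A => ne_top_of_le_ne_top (h1 ▸ ENNReal.one_ne_top)
    (measure_mono (Set.subset_univ A))) h0 N (fun i => ENNReal.ofReal (p i)) Set.univ <| by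
      rw [← ENNReal.ofReal_sum_of_nonneg fun i _ => hp i, hs, h1, ENNReal.ofReal_one]
  exact ⟨r, by simpa using hr⟩

end Vale.Agent.P129.Pos
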