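import Vale.Agent.P129.Pos.SN
import Vale.Agent.P129.Pos.Summing

/-!
P129, positive direction, file Random: fewer than continuum many total measures on a space
without separable quotient are killed by one functional.

Plan for `exists_diffuse`.  Take `ι = ℝ` in `FineAx`; for `S` of size `< 𝔠` choose `q S ∉ S`; push the
measure forward by `q` (every map out of a `⊤`-measurable space is measurable).

Plan for `exists_killer`.  The dual of `X` is an infinite-dimensional real normed space.  For each `n`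
apply `exists_weights` with `ε = 8⁻¹^n / 2` and the real functionals `w ↦ re (w x)`, `w ↦ im (w x)`,
`‖x‖ ≤ 1`: `∑ p i * ‖w i x‖² ≤ 8⁻¹^n ‖x‖²`, so the `p`-mass of `{i | 2⁻¹^n ‖x‖ < ‖w i x‖}` is
`≤ 2⁻¹^n`.  With `r n` from `exists_partition` put `G n ω = w n (r n ω)`,
`B n ω = {x | 2⁻¹^n ‖x‖ < ‖G n ω x‖}`.  For a total probability `μ` on `X`,
`∫⁻ μ (B n ω) ∂ν = ∑ i, p i * μ {x | ..} = ∫⁻ ∑ i, p i * 1 ∂μ ≤ 2⁻¹^n`, so `∑' n, μ (B n ω) < ∞` for
`ν`-a.e. `ω`, and then (Borel-Cantelli) `μ`-a.e. `x` has `Summable ‖G n ω x‖`.  By `𝔠`-additivity one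
`ω` works for all `μ ∈ S`.  The subspace `Y = {x | Summable ‖G n ω x‖}` is not dense
(`sq_of_strongly_normal`), so some norm one functional vanishes on it (Hahn-Banach).
-/

namespace Vale.Agent.P129.Pos

open MeasureTheory

variable {𝕜 X : Type} [RCLike 𝕜] [NormedAddCommGroup X] [NormedSpace 𝕜 X]

theorem exists_diffuse (h : FineAx) : ∃ ν : @Measure ℝ ⊤, ν Set.univ = 1 ∧ (∀ r : ℝ, ν {r} = 0) ∧
    ∀ A : Set (Set ℝ), Cardinal.mk A < Cardinal.continuum → (∀ B ∈ A, ν B = 0) →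
      ν (⋃₀ A) = 0 := by
  obtain ⟨μ, h1, h2, h3, h4⟩ := h ℝ
  classical
  let q : Set ℝ → ℝ := fun S => if h : ∃ r, r ∉ S then h.choose else 0
  have hq : @Measurable (Set ℝ) ℝ ⊤ ⊤ q := fun _ _ => MeasurableSpace.measurableSet_top
  have hmap : ∀ B : Set ℝ, (@Measure.map (Set ℝ) ℝ ⊤ ⊤ q μ) B = μ (q ⁻¹' B) := fun B =>
    @Measure.map_apply (Set ℝ) ℝ ⊤ ⊤ μ q hq B MeasurableSpace.measurableSet_top
  refine ⟨@Measure.map (Set ℝ) ℝ ⊤ ⊤ q μ, ?_, fun r => ?_, fun A hA hA0 => ?_⟩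
  · rw [hmap, Set.preimage_univ, h1]
  · rw [hmap]
    refine measure_mono_null (t := {S | r ∉ S} ∪ {S | Cardinal.continuum ≤ Cardinal.mk S}) ?_
      (measure_union_null (h3 r) h2)
    intro S hS
    have hS' : q S = r := hS
    by_cases hex : ∃ r, r ∉ S
    · left
      have := hex.choose_spec
      simp only [q, dif_pos hex] at hS'
      rw [hS'] at this
      exact this
    · right
      push Not at hex
      have : S = Set.univ := Set.eq_univ_of_forall hex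
      change Cardinal.continuum ≤ Cardinal.mk S
      rw [this, Cardinal.mk_univ, Cardinal.mk_real]
  · rw [hmap]
    have := h4 ((fun B => q ⁻¹' B) '' A) (Cardinal.mk_image_le.trans_lt hA) (by
      rintro _ ⟨B, hB, rfl⟩
      rw [← hmap]
      exact hA0 B hB)
    rw [Set.sUnion_image] at this
    rw [Set.sUnion_eq_biUnion, Set.preimage_iUnion₂]
    exact this

theorem random_dual_inf (hX : ¬ FiniteDimensional 𝕜 X) :
    ¬ FiniteDimensional ℝ (StrongDual 𝕜 X) := by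
  intro h
  have : FiniteDimensional 𝕜 (StrongDual 𝕜 X) :=
    Module.Finite.of_restrictScalars_finite ℝ 𝕜 (StrongDual 𝕜 X)
  have h2 : FiniteDimensional 𝕜 (StrongDual 𝕜 (StrongDual 𝕜 X)) := inferInstance
  let j : X →ₗ[𝕜] StrongDual 𝕜 (StrongDual 𝕜 X) :=
    (NormedSpace.inclusionInDoubleDualLi 𝕜 (E := X)).toLinearMap
  have h3 : Function.Injective j :=
    (NormedSpace.inclusionInDoubleDualLi 𝕜 (E := X)).injective
  exact hX (@FiniteDimensional.of_injective 𝕜 X _ _ _ (StrongDual 𝕜 (StrongDual 𝕜 X)) _ _ j h3 h2)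

/-- evaluation at `x` followed by a real functional -/
noncomputable def randomEv (ℓ : 𝕜 →L[ℝ] ℝ) (x : X) : StrongDual ℝ (StrongDual 𝕜 X) :=
  LinearMap.mkContinuous
    { toFun := fun w => ℓ (w x)
      map_add' := fun w w' => by simp
      map_smul' := fun c w => by simp } (‖ℓ‖ * ‖x‖) fun w => by
    calc ‖ℓ (w x)‖ ≤ ‖ℓ‖ * ‖w x‖ := ℓ.le_opNorm _
      _ ≤ ‖ℓ‖ * (‖w‖ * ‖x‖) := by gcongr; exact w.le_opNorm x
      _ = ‖ℓ‖ * ‖x‖ * ‖w‖ := by ring

theorem norm_randomEv_le (ℓ : 𝕜 →L[ℝ] ℝ) (x : X) : ‖randomEv ℓ x‖ ≤ ‖ℓ‖ * ‖x‖ :=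
  LinearMap.mkContinuous_norm_le _ (by positivity) _

theorem random_weights (hX : ¬ FiniteDimensional 𝕜 X) {δ : ℝ} (hδ : 0 < δ) :
    ∃ (N : ℕ) (w : Fin N → StrongDual 𝕜 X) (p : Fin N → ℝ), (∀ i, ‖w i‖ = 1) ∧ (∀ i, 0 ≤ p i) ∧
      ∑ i, p i = 1 ∧ ∀ x : X, ∑ i, p i * (‖w i x‖ / ‖x‖) ≤ δ := by
  obtain ⟨N, w, p, hw, hp, hs, hφ⟩ :=
    exists_weights (StrongDual 𝕜 X) (random_dual_inf hX) (ε := δ ^ 2 / 2) (by positivity)
  refine ⟨N, w, p, hw, hp, hs, fun x => ?_⟩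
  by_cases hx : x = 0
  · simp [hx, hδ.le]
  have hx0 : 0 < ‖x‖ := norm_pos_iff.2 hx
  set y : X := ((‖x‖⁻¹ : ℝ) : 𝕜) • x with hy
  have hy1 : ‖y‖ = 1 := by
    rw [hy, norm_smul, RCLike.norm_ofReal, abs_of_pos (inv_pos.2 hx0), inv_mul_cancel₀ hx0.ne']
  have hwy : ∀ i, ‖w i x‖ / ‖x‖ = ‖w i y‖ := by
    intro i
    rw [hy, map_smul, norm_smul, RCLike.norm_ofReal, abs_of_pos (inv_pos.2 hx0), div_eq_inv_mul]
  have h1 := hφ (randomEv RCLike.reCLM y) ((norm_randomEv_le _ _).trans (by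
    rw [hy1, mul_one, RCLike.reCLM_norm]))
  have him : ‖(RCLike.imCLM : 𝕜 →L[ℝ] ℝ)‖ ≤ 1 :=
    ContinuousLinearMap.opNorm_le_bound _ zero_le_one fun z => by
      simpa using RCLike.abs_im_le_norm z
  have h2 := hφ (randomEv RCLike.imCLM y) ((norm_randomEv_le _ _).trans (by
    rw [hy1, mul_one]; exact him))
  have h3 : ∑ i, p i * ‖w i y‖ ^ 2 ≤ δ ^ 2 := by
    have : ∑ i, p i * ‖w i y‖ ^ 2 = ∑ i, p i * (randomEv RCLike.reCLM y (w i)) ^ 2 +
        ∑ i, p i * (randomEv RCLike.imCLM y (w i)) ^ 2 := by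
      rw [← Finset.sum_add_distrib]
      refine Finset.sum_congr rfl fun i _ => ?_
      rw [← mul_add, RCLike.norm_sq_eq_def]
      change _ = p i * (RCLike.re (w i y) ^ 2 + RCLike.im (w i y) ^ 2)
      ring
    linarith
  simp only [hwy]
  have h4 : ∑ i, p i * ‖w i y‖ ≤ ∑ i, (p i * ‖w i y‖ ^ 2 / (2 * δ) + p i * (δ / 2)) := by
    refine Finset.sum_le_sum fun i _ => ?_
    rw [mul_div_assoc, ← mul_add]
    refine mul_le_mul_of_nonneg_left ?_ (hp i)
    rw [div_add_div _ _ (by positivity) (by positivity), le_div_iff₀ (by positivity)]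
    nlinarith [sq_nonneg (‖w i y‖ - δ)]
  rw [Finset.sum_add_distrib, ← Finset.sum_div, ← Finset.sum_mul, hs] at h4
  have h5 : (∑ i, p i * ‖w i y‖ ^ 2) / (2 * δ) ≤ δ / 2 := by
    rw [div_le_iff₀ (by positivity)]
    nlinarith
  linarith

theorem random_killer_of_not_dense (Y : Submodule 𝕜 X) (hY : ¬ Dense (Y : Set X)) :
    ∃ f : StrongDual 𝕜 X, ‖f‖ = 1 ∧ ∀ y ∈ Y, f y = 0 := by
  rw [Submodule.dense_iff_topologicalClosure_eq_top, Submodule.eq_top_iff'] at hY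
  push Not at hY
  obtain ⟨x, hx⟩ := hY
  have : IsClosed (Y.topologicalClosure : Set X) := Y.isClosed_topologicalClosure
  have hx' : Y.topologicalClosure.mkQL x ≠ 0 := fun h =>
    hx ((Submodule.Quotient.mk_eq_zero _).1 h)
  obtain ⟨g, hg⟩ := SeparatingDual.exists_ne_zero (R := 𝕜) hx'
  let f0 : StrongDual 𝕜 X := g.comp Y.topologicalClosure.mkQL
  have hf0 : f0 ≠ 0 := fun h => hg (by
    change f0 x = 0
    rw [h]
    rfl)
  have hn : 0 < ‖f0‖ := norm_pos_iff.2 hf0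
  refine ⟨((‖f0‖⁻¹ : ℝ) : 𝕜) • f0, ?_, fun y hy => ?_⟩
  · rw [norm_smul, RCLike.norm_ofReal, abs_of_pos (inv_pos.2 hn), inv_mul_cancel₀ hn.ne']
  · have : Y.topologicalClosure.mkQL y = 0 :=
      (Submodule.Quotient.mk_eq_zero _).2 (Y.le_topologicalClosure hy)
    have h2 : f0 y = 0 := by
      change g (Y.topologicalClosure.mkQL y) = 0
      rw [this, map_zero]
    rw [smul_apply, h2, smul_zero]

omit [NormedAddCommGroup X] in
theorem random_lintegral (ν : @Measure ℝ ⊤) {N : ℕ} (r : ℝ → Fin N) (p : Fin N → ℝ)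
    (hp : ∀ i, 0 ≤ p i) (hr : ∀ i, ν (r ⁻¹' {i}) = ENNReal.ofReal (p i)) (μ : @Measure X ⊤)
    (hμ : μ Set.univ = 1) (a : Fin N → X → ℝ) (ha : ∀ i x, 0 ≤ a i x) {δ : ℝ}
    (h : ∀ x, ∑ i, p i * a i x ≤ δ) :
    @lintegral ℝ ⊤ ν (fun ω => @lintegral X ⊤ μ fun x => ENNReal.ofReal (a (r ω) x)) ≤
      ENNReal.ofReal δ := by
  let _ : MeasurableSpace ℝ := ⊤
  let _ : MeasurableSpace X := ⊤
  let _ : MeasurableSpace (Fin N) := ⊤
  have hr' : Measurable r := measurable_from_top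
  have e1 := lintegral_map (μ := ν) (f := fun i => ∫⁻ x, ENNReal.ofReal (a i x) ∂μ) (g := r)
    measurable_from_top hr'
  rw [← e1, lintegral_fintype]
  have e2 : ∀ i, (∫⁻ x, ENNReal.ofReal (a i x) ∂μ) * (Measure.map r ν) {i} =
      ∫⁻ x, ENNReal.ofReal (p i * a i x) ∂μ := by
    intro i
    rw [Measure.map_apply hr' MeasurableSpace.measurableSet_top, hr, mul_comm,
      ← lintegral_const_mul _ measurable_from_top]
    simp only [ENNReal.ofReal_mul (hp i)]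
  simp only [e2]
  rw [← lintegral_finsetSum _ fun i _ => measurable_from_top]
  calc ∫⁻ x, ∑ i, ENNReal.ofReal (p i * a i x) ∂μ ≤ ∫⁻ _x, ENNReal.ofReal δ ∂μ := by
        refine lintegral_mono fun x => ?_
        rw [← ENNReal.ofReal_sum_of_nonneg fun i _ => mul_nonneg (hp i) (ha i x)]
        exact ENNReal.ofReal_le_ofReal (h x)
    _ = ENNReal.ofReal δ := by rw [lintegral_const, hμ, mul_one]

theorem exists_killer [CompleteSpace X] (ν : @Measure ℝ ⊤) (h1 : ν Set.univ = 1)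
    (h0 : ∀ r : ℝ, ν {r} = 0)
    (hadd : ∀ A : Set (Set ℝ), Cardinal.mk A < Cardinal.continuum → (∀ B ∈ A, ν B = 0) →
      ν (⋃₀ A) = 0)
    (hX : ¬ FiniteDimensional 𝕜 X) (hsq : ¬ SQ 𝕜 X) (S : Set (@Measure X ⊤))
    (hS : Cardinal.mk S < Cardinal.continuum) (hS1 : ∀ μ ∈ S, μ Set.univ = 1) :
    ∃ f : StrongDual 𝕜 X, ‖f‖ = 1 ∧ ∀ μ ∈ S, μ {x | f x ≠ 0} = 0 := by
  have hw := fun n : ℕ => random_weights hX (δ := (2⁻¹ : ℝ) ^ n) (by positivity)
  choose N w p hw hp hs hwp using hw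
  have hr := fun n : ℕ => exists_partition ν h1 h0 (p n) (hp n) (hs n)
  choose r hr using hr
  let _ : MeasurableSpace ℝ := ⊤
  let _ : MeasurableSpace X := ⊤
  let H : Measure X → ℝ → ENNReal := fun μ ω =>
    ∑' n, ∫⁻ x, ENNReal.ofReal (‖w n (r n ω) x‖ / ‖x‖) ∂μ
  have hH : ∀ μ ∈ S, ν {ω | H μ ω = ⊤} = 0 := by
    intro μ hμ
    have hle : ∫⁻ ω, H μ ω ∂ν ≤ ∑' n : ℕ, ENNReal.ofReal ((2⁻¹ : ℝ) ^ n) := by
      rw [lintegral_tsum fun n => measurable_from_top.aemeasurable]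
      exact ENNReal.tsum_le_tsum fun n => random_lintegral ν (r n) (p n) (hp n) (hr n) μ (hS1 μ hμ)
        (fun i x => ‖w n i x‖ / ‖x‖) (fun i x => by positivity) (hwp n)
    have hfin : ∑' n : ℕ, ENNReal.ofReal ((2⁻¹ : ℝ) ^ n) ≠ ⊤ := by
      rw [← ENNReal.ofReal_tsum_of_nonneg (fun n => by positivity)
        (summable_geometric_of_lt_one (by norm_num) (by norm_num))]
      exact ENNReal.ofReal_ne_top
    have := ae_lt_top (μ := ν) (f := H μ) measurable_from_top (ne_top_of_le_ne_top hfin hle)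
    rw [ae_iff] at this
    simpa only [not_lt, top_le_iff] using this
  have hnull := hadd ((fun μ => {ω | H μ ω = ⊤}) '' S) (Cardinal.mk_image_le.trans_lt hS) (by
    rintro _ ⟨μ, hμ, rfl⟩
    exact hH μ hμ)
  obtain ⟨ω, hω⟩ : ∃ ω, ω ∉ ⋃₀ ((fun μ => {ω | H μ ω = ⊤}) '' S) := by
    by_contra hc
    push Not at hc
    rw [Set.eq_univ_of_forall hc, h1] at hnull
    exact one_ne_zero hnull
  let Y : Submodule 𝕜 X :=
    { carrier := {x | Summable fun n => ‖w n (r n ω) x‖}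
      zero_mem' := by simp
      add_mem' := by
        intro x y hx hy
        refine Summable.of_nonneg_of_le (fun n => norm_nonneg _) (fun n => ?_) (hx.add hy)
        rw [map_add]
        exact norm_add_le _ _
      smul_mem' := by
        intro c x hx
        have := Summable.mul_left ‖c‖ hx
        simpa only [Set.mem_ofPred_eq, map_smul, norm_smul] using this }
  have hY : ¬ Dense (Y : Set X) := fun hd =>
    hsq (sq_of_strongly_normal (g := fun n => w n (r n ω)) (fun n => hw n _) hd)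
  obtain ⟨f, hf1, hf⟩ := random_killer_of_not_dense Y hY
  refine ⟨f, hf1, fun μ hμ => ?_⟩
  have hne : H μ ω ≠ ⊤ := fun h => hω ⟨_, ⟨μ, hμ, rfl⟩, h⟩
  have h2 : ∫⁻ x, ∑' n, ENNReal.ofReal (‖w n (r n ω) x‖ / ‖x‖) ∂μ ≠ ⊤ := by
    rw [lintegral_tsum fun n => measurable_from_top.aemeasurable]
    exact hne
  have h3 := ae_lt_top measurable_from_top h2
  rw [ae_iff] at h3
  refine measure_mono_null (fun x hx => ?_) h3
  intro hlt
  refine hx (hf x ?_)
  have h4 := (ENNReal.summable_toReal hlt.ne).mul_right ‖x‖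
  by_cases hx0 : x = 0
  · rw [hx0]
    exact Y.zero_mem
  · refine h4.congr fun n => ?_
    rw [ENNReal.toReal_ofReal (by positivity), div_mul_cancel₀ _ (norm_ne_zero_iff.2 hx0)]

end Vale.Agent.P129.Pos
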