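import Vale.Agent.P129.Pos.Quot

/-!
P129, positive direction, file SN: a strongly normal sequence gives a separable quotient.

Plan for `sq_of_strongly_normal`.  `g n x → 0` for all `x` (bounded, dense set `Y`).  Sub-lemma: for
`f 0, .., f (k-1)` and `N` there are `n ≥ N` and `x` with `f j x = 0`, `g n x = 1`, `‖x‖ ≤ 3`
(otherwise the restriction of `g n` to `L = ⨅ ker (f j)` has norm `≤ 1/3` for `n ≥ N`; extend it by
Hahn-Banach to `g' n`; `g n - g' n` lies in the finite-dimensional span of the `f j`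
(`mem_span_of_iInf_ker_le_ker`), is bounded, so has a convergent subsequence with limit `f`,
`‖f‖ ≤ 1/3`, and `1 = ‖g n‖ ≤ 1/3 + ‖g n - g' n‖ → ≤ 2/3`).  Choose recursively `n k` increasing and
`y k ∈ Y`, `‖y k‖ ≤ 4`, with `‖g (n j) (y k) - δ j k‖ ≤ 2⁻¹^j / 16` for all `j, k` except that the
diagonal error is `≤ 1/16`; so all column sums of errors are `≤ 1/4`.  With `φ j = g (n j)`,
`p y = ∑' j, ‖φ j y‖` and `e = ∑ k < K, φ k y • y k` (tail `≤ p y / 4`) apply `iter_approx` in the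
closed span `E` of the `y k`, then `sq_of_dense` (density of `Y`; the `φ j` are independent: test a
relation on `y k` for `k` with the largest coefficient).
-/

namespace Vale.Agent.P129.Pos

open Filter Topology

variable {𝕜 X : Type} [RCLike 𝕜] [NormedAddCommGroup X] [NormedSpace 𝕜 X]

theorem sn_null {g : ℕ → StrongDual 𝕜 X} (hg : ∀ n, ‖g n‖ = 1)
    (hd : Dense {x : X | Summable fun n => ‖g n x‖}) (x : X) :
    Tendsto (fun n => ‖g n x‖) atTop (𝓝 0) := by
  refine (tendsto_order.2 ⟨fun a ha => .of_forall fun n => ha.trans_le (norm_nonneg _),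
    fun ε hε => ?_⟩)
  obtain ⟨y, hy, hxy⟩ := hd.exists_dist_lt x (half_pos hε)
  filter_upwards [(Summable.tendsto_atTop_zero hy).eventually_lt_const (half_pos hε)] with n hn
  have h1 := (g n).le_opNorm (x - y)
  rw [hg, one_mul, map_sub, ← dist_eq_norm x] at h1
  linarith [norm_sub_norm_le (g n x) (g n y)]

theorem sn_point {ι : Type} [Fintype ι] {g : ℕ → StrongDual 𝕜 X} (hg : ∀ n, ‖g n‖ = 1)
    (h0 : ∀ x, Tendsto (fun n => ‖g n x‖) atTop (𝓝 0)) (f : ι → StrongDual 𝕜 X) (N : ℕ) :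
    ∃ n ≥ N, ∃ x, (∀ j, f j x = 0) ∧ g n x = 1 ∧ ‖x‖ ≤ 3 := by
  by_contra! hcon
  obtain ⟨L, hL⟩ : ∃ L : Submodule 𝕜 X, L = ⨅ j, LinearMap.ker (f j : X →ₗ[𝕜] 𝕜) := ⟨_, rfl⟩
  have h1 : ∀ n, ‖(g (n + N)).comp L.subtypeL‖ ≤ 1 / 3 := fun n => by
    refine ContinuousLinearMap.opNorm_le_bound _ (by norm_num) fun x => ?_
    change ‖g (n + N) x‖ ≤ 1 / 3 * ‖(x : X)‖
    by_cases hx : g (n + N) x = 0
    · rw [hx, norm_zero]
      positivity
    have hx' : ∀ j, f j x = 0 := fun j => (Submodule.mem_iInf _).1 (hL.le x.2) j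
    have h2 := hcon (n + N) (Nat.le_add_left _ _) ((g (n + N) x)⁻¹ • (x : X))
      (fun j => by rw [map_smul, hx', smul_zero]) (by rw [map_smul, smul_eq_mul, inv_mul_cancel₀ hx])
    rw [norm_smul, norm_inv, ← div_eq_inv_mul, lt_div_iff₀ (norm_pos_iff.2 hx)] at h2
    linarith
  choose g' h2 h3 using fun n => exists_extension_norm_eq L ((g (n + N)).comp L.subtypeL)
  obtain ⟨F, hF⟩ : ∃ F : Submodule 𝕜 (StrongDual 𝕜 X), F = Submodule.span 𝕜 (Set.range f) :=
    ⟨_, rfl⟩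
  have h4 : ∀ n, g (n + N) - g' n ∈ F := fun n => by
    obtain ⟨c, hc⟩ := (Submodule.mem_span_range_iff_exists_fun 𝕜).1
      (mem_span_of_iInf_ker_le_ker (L := fun j => (f j : X →ₗ[𝕜] 𝕜))
        (K := ((g (n + N) - g' n : StrongDual 𝕜 X) : X →ₗ[𝕜] 𝕜)) fun x hx =>
          sub_eq_zero.2 (h2 n ⟨x, hL ▸ hx⟩).symm)
    rw [hF]
    refine (Submodule.mem_span_range_iff_exists_fun 𝕜).2 ⟨c, ContinuousLinearMap.ext fun x => ?_⟩
    simpa using LinearMap.congr_fun hc x
  have : FiniteDimensional 𝕜 F := hF ▸ FiniteDimensional.span_of_finite 𝕜 (Set.finite_range f)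
  have : ProperSpace F := FiniteDimensional.proper_rclike 𝕜 F
  have h5 : ∀ n, ‖g' n‖ ≤ 1 / 3 := fun n => (h3 n).trans_le (h1 n)
  obtain ⟨u, -, ψ, hψ, hu⟩ := tendsto_subseq_of_bounded (Metric.isBounded_closedBall (x := (0 : F))
    (r := 2)) (x := fun n => ⟨_, h4 n⟩) fun n => by
      refine mem_closedBall_zero_iff.2 ((norm_sub_le (g (n + N)) (g' n)).trans ?_)
      linarith [hg (n + N), h5 n]
  have hu' : Tendsto (fun n => g (ψ n + N) - g' (ψ n)) atTop (𝓝 (u : StrongDual 𝕜 X)) :=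
    (continuous_subtype_val.tendsto u).comp hu
  have h6 : 2 / 3 ≤ ‖(u : StrongDual 𝕜 X)‖ := ge_of_tendsto' hu'.norm fun n => by
    linarith [norm_sub_norm_le (g (ψ n + N)) (g' (ψ n)), hg (ψ n + N), h5 (ψ n)]
  have h7 : ‖(u : StrongDual 𝕜 X)‖ ≤ 1 / 3 := by
    refine ContinuousLinearMap.opNorm_le_bound _ (by norm_num) fun x => ?_
    have h8 := (((h0 x).comp (tendsto_add_atTop_nat N)).comp hψ.tendsto_atTop).add_const
      (1 / 3 * ‖x‖)
    rw [zero_add] at h8
    refine le_of_tendsto_of_tendsto' (((ContinuousLinearMap.apply 𝕜 𝕜 x).continuous.tendsto _).comp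
      hu').norm h8 fun n => (norm_sub_le (g (ψ n + N) x) (g' (ψ n) x)).trans ?_
    exact add_le_add le_rfl ((g' (ψ n)).le_of_opNorm_le (h5 _) x)
  linarith

theorem sn_seq {g : ℕ → StrongDual 𝕜 X} (hg : ∀ n, ‖g n‖ = 1)
    (hd : Dense {x : X | Summable fun n => ‖g n x‖}) : ∃ (n : ℕ → ℕ) (y : ℕ → X), StrictMono n ∧
      (∀ k, ‖y k‖ ≤ 3) ∧
      ∀ j k, ‖(if k = j then 1 else 0) - g (n j) (y k)‖ ≤ (1 / 2) ^ j / 16 := by
  obtain ⟨u, h1, h2⟩ := exists_seq_of_forall_finset_exists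
    (fun a : ℕ × ℕ × X => ‖a.2.2‖ ≤ 3 ∧ g a.2.1 a.2.2 = 1)
    (fun a b => a.1 < b.1 ∧ a.2.1 < b.2.1 ∧ g a.2.1 b.2.2 = 0 ∧
      ‖g b.2.1 a.2.2‖ ≤ (1 / 2) ^ b.1 / 16) fun s _ => by
    obtain ⟨m, hm⟩ := ((eventually_all_finset s).2 fun a _ => eventually_gt_atTop a.1).exists
    obtain ⟨N, hN⟩ := eventually_atTop.1 ((eventually_all_finset s).2 fun a _ =>
      (eventually_gt_atTop a.2.1).and ((sn_null hg hd a.2.2).eventually_le_const
        (by positivity : (0 : ℝ) < (1 / 2) ^ m / 16)))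
    obtain ⟨n, hn, x, h1, h2, h3⟩ := sn_point hg (sn_null hg hd) (fun a : s => g a.1.2.1) N
    exact ⟨(m, n, x), ⟨h3, h2⟩, fun a ha =>
      ⟨hm a ha, (hN n hn a ha).1, h1 ⟨a, ha⟩, (hN n hn a ha).2⟩⟩
  have hm : StrictMono fun k => (u k).1 := fun a b h => (h2 a b h).1
  refine ⟨fun k => (u k).2.1, fun k => (u k).2.2, fun a b h => (h2 a b h).2.1, fun k => (h1 k).1,
    fun j k => ?_⟩
  rcases lt_trichotomy j k with h | rfl | h
  · rw [if_neg h.ne', (h2 j k h).2.2.1, sub_zero, norm_zero]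
    positivity
  · rw [if_pos rfl, (h1 j).2, sub_self, norm_zero]
    positivity
  · rw [if_neg h.ne, zero_sub, norm_neg]
    refine (h2 k j h).2.2.2.trans (div_le_div_of_nonneg_right ?_ (by norm_num))
    exact pow_le_pow_of_le_one (by norm_num) (by norm_num) (hm.id_le j)

theorem sn_indep {φ : ℕ → StrongDual 𝕜 X} {y : ℕ → X}
    (h : ∀ j k, ‖(if k = j then 1 else 0) - φ j (y k)‖ ≤ (1 / 2) ^ j / 16) :
    LinearIndependent 𝕜 φ := by
  refine linearIndependent_iff'.2 fun s c hc i hi => ?_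
  obtain ⟨k, hk, hmax⟩ := s.exists_max_image (fun j => ‖c j‖) ⟨i, hi⟩
  have h1 : c k = ∑ j ∈ s, c j * ((if k = j then 1 else 0) - φ j (y k)) := by
    have := congrArg (fun ψ : StrongDual 𝕜 X => ψ (y k)) hc
    simp only [ContinuousLinearMap.sum_apply, ContinuousLinearMap.smul_apply, smul_eq_mul,
      ContinuousLinearMap.zero_apply] at this
    simp [mul_sub, Finset.sum_sub_distrib, this, hk]
  have h2 : ‖c k‖ ≤ ∑ j ∈ s, ‖c k‖ / 16 * (1 / 2) ^ j := by
    refine (congrArg norm h1).trans_le ((norm_sum_le _ _).trans (Finset.sum_le_sum fun j hj => ?_))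
    rw [norm_mul]
    exact (mul_le_mul (hmax j hj) (h j k) (norm_nonneg _) (norm_nonneg _)).trans_eq (by ring)
  rw [← Finset.mul_sum] at h2
  have h3 := mul_le_mul_of_nonneg_left (sum_le_hasSum s (fun _ _ => by positivity)
    hasSum_geometric_two) (by positivity : 0 ≤ ‖c k‖ / 16)
  exact norm_le_zero_iff.1 ((hmax i hi).trans (by linarith))

theorem sq_of_strongly_normal [CompleteSpace X] {g : ℕ → StrongDual 𝕜 X} (hg : ∀ n, ‖g n‖ = 1)
    (hd : Dense {x : X | Summable fun n => ‖g n x‖}) : SQ 𝕜 X := by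
  obtain ⟨n, y, hn, hy, h⟩ := sn_seq hg hd
  have key := iter_approx (φ := fun j => g (n j))
    (Submodule.span 𝕜 (Set.range y)).isClosed_topologicalClosure
    (Y := {x | Summable fun j => ‖g (n j) x‖}) (p := fun x => ∑' j, ‖g (n j) x‖) (C := 3)
    (fun x hx k => Summable.le_tsum hx k fun _ _ => norm_nonneg _) fun x hx => by
      have hx' : Summable fun j => ‖g (n j) x‖ := hx
      have hb : ∀ k, ‖g (n k) x • y k‖ ≤ 3 * ‖g (n k) x‖ := fun k => by
        rw [norm_smul, mul_comm]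
        exact mul_le_mul_of_nonneg_right (hy k) (norm_nonneg _)
      have h1 := ((hx'.mul_left 3).of_norm_bounded hb).hasSum
      have h2 : ∀ j, ‖g (n j) (x - ∑' k, g (n k) x • y k)‖ ≤
          (∑' k, ‖g (n k) x‖) / 16 * (1 / 2) ^ j := fun j => by
        have h3 := (hasSum_ite_eq j (g (n j) x)).sub (h1.mapL (g (n j)))
        rw [map_sub]
        refine (h3.norm_le_of_bounded (hx'.hasSum.mul_right ((1 / 2) ^ j / 16)) fun k => ?_).trans_eq
          (by ring)
        refine le_of_eq_of_le ?_ (mul_le_mul_of_nonneg_left (h j k) (norm_nonneg _))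
        rw [← norm_mul, map_smul, smul_eq_mul, mul_sub]
        split_ifs with hk
        · rw [hk, mul_one]
        · rw [mul_zero]
      have h4 := hasSum_geometric_two.mul_left ((∑' k, ‖g (n k) x‖) / 16)
      have h5 := h4.summable.of_nonneg_of_le (fun _ => norm_nonneg _) h2
      refine ⟨∑' k, g (n k) x • y k, tsum_mem (Submodule.isClosed_topologicalClosure _) fun k =>
        Submodule.le_topologicalClosure _ (Submodule.smul_mem _ _ (Submodule.subset_span ⟨k, rfl⟩)),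
        h5, h1.norm_le_of_bounded (hx'.hasSum.mul_left 3) hb, ?_⟩
      have h6 : 0 ≤ ∑' k, ‖g (n k) x‖ := tsum_nonneg fun _ => norm_nonneg _
      linarith [hasSum_le h2 h5.hasSum h4]
  refine sq_of_dense (sn_indep h) ((Set.countable_range y).isSeparable.span (R := 𝕜)).closure
    fun x ε hε => ?_
  obtain ⟨z, hz, hxz⟩ := hd.exists_dist_lt x hε
  obtain ⟨e, he, he'⟩ := key z
    (Summable.comp_injective (f := fun j => ‖g j z‖) hz hn.injective)
  refine ⟨e, he, z - e, he', ?_⟩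
  rw [sub_sub_sub_cancel_right, ← dist_eq_norm]
  exact hxz.le

end Vale.Agent.P129.Pos
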